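import Vale.Agent.P233.RA.IfHK

/-! P233, RCDA, blocks H2a, H2b, H2c: the heat flow in `L¹`. -/

set_option linter.all false

open MeasureTheory Filter Topology Set
open scoped ENNReal NNReal

universe u

namespace Vale.Agent.P233.H982

variable {M : Type*} [MeasurableSpace M] {m : Measure M} {C : Calc m}

/-! ### `L¹` tools -/

theorem int_abs {f : M →ₘ[m] ℝ} (hf : MemLp f 1 m) : Integrable (fun x => |f x|) m :=
  (int_of_mem hf).abs

theorem int_abs_add_le {f g : M →ₘ[m] ℝ} (hf : MemLp f 1 m) (hg : MemLp g 1 m) :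
    ∫ x, |(f + g) x| ∂m ≤ ∫ x, |f x| ∂m + ∫ x, |g x| ∂m := by
  rw [← integral_add (int_abs hf) (int_abs hg)]
  refine integral_mono_ae (int_abs (mem_add hf hg)) ((int_abs hf).add (int_abs hg)) ?_
  filter_upwards [add_ae f g] with x hx
  rw [hx]
  exact abs_add_le _ _

theorem int_abs_sub_le {f g : M →ₘ[m] ℝ} (hf : MemLp f 1 m) (hg : MemLp g 1 m) :
    ∫ x, |(f - g) x| ∂m ≤ ∫ x, |f x| ∂m + ∫ x, |g x| ∂m := by
  rw [← integral_add (int_abs hf) (int_abs hg)]
  refine integral_mono_ae (int_abs (mem_sub hf hg)) ((int_abs hf).add (int_abs hg)) ?_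
  filter_upwards [sub_ae f g] with x hx
  rw [hx]
  exact abs_sub _ _

theorem int_abs_smul (c : ℝ) (f : M →ₘ[m] ℝ) :
    ∫ x, |(c • f) x| ∂m = |c| * ∫ x, |f x| ∂m := by
  rw [← integral_const_mul]
  refine integral_congr_ae ?_
  filter_upwards [smul_ae f c] with x hx
  rw [hx, abs_mul]

theorem int_abs_nonneg (f : M →ₘ[m] ℝ) : 0 ≤ ∫ x, |f x| ∂m :=
  integral_nonneg fun x => abs_nonneg _

theorem int_abs_sub_comm (f g : M →ₘ[m] ℝ) : ∫ x, |(f - g) x| ∂m = ∫ x, |(g - f) x| ∂m := by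
  refine integral_congr_ae ?_
  filter_upwards [sub_ae f g, sub_ae g f] with x h1 h2
  rw [h1, h2, abs_sub_comm]

theorem abs_I_le (f : M →ₘ[m] ℝ) : |I f| ≤ ∫ x, |f x| ∂m := abs_integral_le_integral_abs

/-- pairing with a bounded function -/
theorem abs_I_mul_le {a g : M →ₘ[m] ℝ} {B : ℝ} (ha : MemLp a 1 m) (hg : ∀ᵐ x ∂m, |g x| ≤ B) :
    |I (a * g)| ≤ B * ∫ x, |a x| ∂m := by
  refine (abs_I_le _).trans ?_
  rw [← integral_const_mul]
  refine integral_mono_ae (int_abs ?_) ((int_abs ha).const_mul B) ?_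
  · exact mem_top_mul ha (mem_top_iff.2 ⟨B, hg⟩)
  · filter_upwards [mul_ae a g, hg] with x h1 h2
    rw [h1, abs_mul, mul_comm]
    exact mul_le_mul_of_nonneg_right h2 (abs_nonneg _)

/-- norm in `L¹` by duality -/
theorem L1_le_of_dual {F : M →ₘ[m] ℝ} (hF1 : MemLp F 1 m) (hF2 : MemLp F 2 m) {S : ℝ}
    (h : ∀ g : M →ₘ[m] ℝ, MemLp g 2 m → (∀ᵐ x ∂m, |g x| ≤ 1) → I (F * g) ≤ S) :
    ∫ x, |F x| ∂m ≤ S := by
  set ψ : ℕ → ℝ → ℝ := fun k t => k * t / (1 + k * |t|) with hψ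
  have hpos : ∀ (k : ℕ) (t : ℝ), 0 < 1 + (k : ℝ) * |t| := fun k t => by positivity
  have hψc : ∀ k, Continuous (ψ k) := fun k =>
    (continuous_const.mul continuous_id).div (by fun_prop) fun t => (hpos k t).ne'
  have hψ1 : ∀ (k : ℕ) (t : ℝ), |ψ k t| ≤ 1 := by
    intro k t
    simp only [hψ]
    rw [abs_div, abs_of_pos (hpos k t), div_le_one (hpos k t), abs_mul, Nat.abs_cast]
    linarith
  have hψ2 : ∀ (k : ℕ) (t : ℝ), |ψ k t| ≤ |(k : ℝ) * t| := by
    intro k t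
    simp only [hψ]
    rw [abs_div, abs_of_pos (hpos k t)]
    exact div_le_self (abs_nonneg _) (by have : 0 ≤ (k : ℝ) * |t| := by positivity
                                         linarith)
  set G : ℕ → M →ₘ[m] ℝ := fun k => AEEqFun.comp (ψ k) (hψc k) F with hG
  have hGae : ∀ k, ∀ᵐ x ∂m, G k x = ψ k (F x) := fun k => AEEqFun.coeFn_comp _ _ _
  have h1 : ∀ k, I (F * G k) ≤ S := by
    intro k
    apply h
    · refine mem_of_le (mem_smul (k : ℝ) hF2) ?_
      filter_upwards [hGae k, smul_ae F (k : ℝ)] with x a1 a2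
      rw [a1, a2]
      exact hψ2 k _
    · filter_upwards [hGae k] with x a1
      rw [a1]
      exact hψ1 k _
  have h2 : Tendsto (fun k => I (F * G k)) atTop (𝓝 (∫ x, |F x| ∂m)) := by
    unfold I
    refine tendsto_integral_of_dominated_convergence (fun x => |F x|)
      (fun k => (F * G k).aestronglyMeasurable) (int_abs hF1) ?_ ?_
    · intro k
      filter_upwards [mul_ae F (G k), hGae k] with x a1 a2
      rw [a1, a2, Real.norm_eq_abs, abs_mul]
      exact mul_le_of_le_one_right (abs_nonneg _) (hψ1 k _)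
    · have a1 : ∀ᵐ x ∂m, ∀ k, (F * G k : M →ₘ[m] ℝ) x = F x * G k x :=
        ae_all_iff.2 fun k => mul_ae F (G k)
      filter_upwards [a1, ae_all_iff.2 hGae] with x b1 b2
      simp only [b1, b2]
      by_cases h0 : F x = 0
      · rw [h0]; simp
      · have h3 : 0 < |F x| := abs_pos.2 h0
        have h4 : ∀ k : ℕ, F x * ψ k (F x) = |F x| - |F x| / (1 + k * |F x|) := by
          intro k
          simp only [hψ]
          have h5 := (hpos k (F x)).ne'
          have h6 : F x * F x = |F x| * |F x| := (abs_mul_abs_self _).symm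
          field_simp
          rw [sq, h6]
          ring
        simp only [h4]
        have h5 : Tendsto (fun k : ℕ => 1 + (k : ℝ) * |F x|) atTop atTop :=
          tendsto_atTop_add_const_left _ _
            (tendsto_natCast_atTop_atTop.atTop_mul_const h3)
        have h6 := (h5.const_div_atTop |F x|).const_sub |F x|
        simpa using h6
  exact le_of_tendsto' h2 h1

/-- quantitative Scheffé lemma -/
theorem scheffe_bound {f u : M →ₘ[m] ℝ} (hf0 : 0 ≤ f) (hu0 : 0 ≤ u) (hf2 : MemLp f 2 m)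
    (hf1 : MemLp f 1 m) (hu2 : MemLp u 2 m) (hu1 : MemLp u 1 m) (hI : I u ≤ I f) {c : ℝ}
    (hc : 0 < c) :
    ∫ x, |(u - f) x| ∂m ≤ 2 * ∫ x, min (f x) c ∂m
      + 2 / c * (√(I ((u - f) ^ 2)) * √(I (f ^ 2))) := by
  have hd2 := mem_sub hu2 hf2
  have hd1 := mem_sub hu1 hf1
  have hm : Integrable (fun x => min (f x) c) m := by
    refine (int_of_mem hf1).mono
      ((f.aestronglyMeasurable.aemeasurable.min aemeasurable_const).aestronglyMeasurable) ?_
    filter_upwards [nonneg_iff_ae.1 hf0] with x hx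
    rw [Real.norm_eq_abs, Real.norm_eq_abs, abs_of_nonneg (le_min hx hc.le), abs_of_nonneg hx]
    exact min_le_left _ _
  have hp : Integrable (fun x => |(u - f) x| * f x) m := by
    have h1 : MemLp (fun x => |(u - f) x|) 2 m := hd2.abs
    exact h1.integrable_mul hf2
  have hcs : ∫ x, |(u - f) x| * f x ∂m ≤ √(I ((u - f) ^ 2)) * √(I (f ^ 2)) := by
    have hd3 : MemLp (|u - f| : M →ₘ[m] ℝ) 2 m := by
      refine mem_of_le hd2 ?_
      filter_upwards [AEEqFun.coeFn_abs (u - f)] with x hx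
      rw [hx, abs_abs]
    have h1 := I_abs_le hd3 hf2
    have h2 : I (|u - f| * f) = ∫ x, |(u - f) x| * f x ∂m := by
      unfold I
      refine integral_congr_ae ?_
      filter_upwards [mul_ae |u - f| f, AEEqFun.coeFn_abs (u - f)] with x a1 a2
      rw [a1, a2]
    have h3 : I ((|u - f|) ^ 2) = I ((u - f) ^ 2) := by
      unfold I
      refine integral_congr_ae ?_
      filter_upwards [sq_ae |u - f|, sq_ae (u - f), AEEqFun.coeFn_abs (u - f)] with x a1 a2 a3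
      rw [a1, a2, a3, sq_abs]
    rw [h2, h3] at h1
    exact (le_abs_self _).trans h1
  have key : ∫ x, |(u - f) x| ∂m ≤ ∫ x, ((u - f) x
      + (2 * min (f x) c + 2 / c * (|(u - f) x| * f x))) ∂m := by
    refine integral_mono_ae (int_abs hd1)
      ((int_of_mem hd1).add ((hm.const_mul 2).add (hp.const_mul (2 / c)))) ?_
    filter_upwards [sub_ae u f, nonneg_iff_ae.1 hf0, nonneg_iff_ae.1 hu0] with x h1 h2 h3
    rw [h1]
    have hmin : 0 ≤ min (f x) c := le_min h2 hc.le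
    rcases le_total (f x) (u x) with h | h
    · rw [abs_of_nonneg (sub_nonneg.2 h)]
      have : 0 ≤ 2 / c * ((u x - f x) * f x) :=
        mul_nonneg (by positivity) (mul_nonneg (sub_nonneg.2 h) h2)
      linarith
    · rw [abs_of_nonpos (sub_nonpos.2 h)]
      rcases le_total (f x) c with h4 | h4
      · rw [min_eq_left h4]
        have : 0 ≤ 2 / c * (-(u x - f x) * f x) :=
          mul_nonneg (by positivity) (mul_nonneg (by linarith) h2)
        linarith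
      · have h5 : 1 ≤ f x / c := (one_le_div hc).2 h4
        have h6 : (f x - u x) * 1 ≤ (f x - u x) * (f x / c) :=
          mul_le_mul_of_nonneg_left h5 (by linarith)
        have h7 : 2 / c * (-(u x - f x) * f x) = 2 * ((f x - u x) * (f x / c)) := by
          field_simp
          ring
        rw [h7]
        linarith
  have h1 : ∫ x, ((u - f) x + (2 * min (f x) c + 2 / c * (|(u - f) x| * f x))) ∂m
      = I (u - f) + (2 * ∫ x, min (f x) c ∂m + 2 / c * ∫ x, |(u - f) x| * f x ∂m) := by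
    have e1 := integral_add (μ := m) (f := fun x => (u - f) x)
      (g := fun x => 2 * min (f x) c + 2 / c * (|(u - f) x| * f x)) (int_of_mem hd1)
      ((hm.const_mul 2).add (hp.const_mul (2 / c)))
    have e2 := integral_add (μ := m) (f := fun x => 2 * min (f x) c)
      (g := fun x => 2 / c * (|(u - f) x| * f x)) (hm.const_mul 2) (hp.const_mul (2 / c))
    rw [e1, e2, integral_const_mul, integral_const_mul]
    rfl
  rw [h1, I_sub hu1 hf1] at key
  have h2 : 2 / c * ∫ x, |(u - f) x| * f x ∂m ≤ 2 / c * (√(I ((u - f) ^ 2)) * √(I (f ^ 2))) :=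
    mul_le_mul_of_nonneg_left hcs (by positivity)
  linarith

theorem tendsto_int_min {f : M →ₘ[m] ℝ} (hf0 : 0 ≤ f) (hf1 : MemLp f 1 m) :
    Tendsto (fun c : ℝ => ∫ x, min (f x) c ∂m) (𝓝[>] 0) (𝓝 0) := by
  have h1 : Tendsto (fun c : ℝ => ∫ x, min (f x) c ∂m) (𝓝[>] 0) (𝓝 (∫ x, (0 : ℝ) ∂m)) := by
    refine tendsto_integral_filter_of_dominated_convergence (fun x => |f x|) ?_ ?_
      (int_abs hf1) ?_
    · exact Eventually.of_forall fun c =>
        (f.aestronglyMeasurable.aemeasurable.min aemeasurable_const).aestronglyMeasurable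
    · filter_upwards [self_mem_nhdsWithin] with c hc
      filter_upwards [nonneg_iff_ae.1 hf0] with x hx
      rw [Real.norm_eq_abs, abs_of_nonneg (le_min hx (le_of_lt hc)), abs_of_nonneg hx]
      exact min_le_left _ _
    · filter_upwards [nonneg_iff_ae.1 hf0] with x hx
      have h2 : Tendsto (fun c : ℝ => min (f x) c) (𝓝 0) (𝓝 (min (f x) 0)) :=
        (continuous_const.min continuous_id).tendsto 0
      rw [min_eq_right hx] at h2
      exact h2.mono_left nhdsWithin_le_nhds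
  simpa using h1

/-- Scheffé: `L²` convergence of nonnegative functions without increase of mass is `L¹`
convergence. -/
theorem L1_of_L2 {ι : Type*} {l : Filter ι} {u : ι → M →ₘ[m] ℝ} {f : M →ₘ[m] ℝ} (hf0 : 0 ≤ f)
    (hf2 : MemLp f 2 m) (hf1 : MemLp f 1 m)
    (hu : ∀ᶠ i in l, 0 ≤ u i ∧ MemLp (u i) 2 m ∧ MemLp (u i) 1 m ∧ I (u i) ≤ I f)
    (h : Tendsto (fun i => I ((u i - f) ^ 2)) l (𝓝 0)) :
    Tendsto (fun i => ∫ x, |(u i - f) x| ∂m) l (𝓝 0) := by
  rw [Metric.tendsto_nhds]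
  intro ε hε
  have h1 := (tendsto_int_min hf0 hf1).eventually (gt_mem_nhds (show (0 : ℝ) < ε / 4 by positivity))
  obtain ⟨c, hc1, hc0⟩ := (h1.and self_mem_nhdsWithin).exists
  have hc0' : (0 : ℝ) < c := hc0
  have h2 : Tendsto (fun i => 2 / c * (√(I ((u i - f) ^ 2)) * √(I (f ^ 2)))) l (𝓝 0) := by
    have := ((h.sqrt).mul_const (√(I (f ^ 2)))).const_mul (2 / c)
    simpa using this
  have h3 := h2.eventually (gt_mem_nhds (show (0 : ℝ) < ε / 2 by positivity))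
  filter_upwards [hu, h3] with i hi h4
  have h5 := scheffe_bound hf0 hi.1 hf2 hf1 hi.2.1 hi.2.2.1 hi.2.2.2 hc0'
  rw [Real.dist_eq, sub_zero, abs_of_nonneg (int_abs_nonneg _)]
  linarith

/-! ### the semigroup and the resolvent in `L¹` -/

section flow

variable (hC : IsDir C) {s t lam : ℝ} {f g h : M →ₘ[m] ℝ}
include hC

/-- `P_t f → f` in `L¹`, `t ↓ 0` -/
theorem P_L1_cont0 (hf : MemLp f 2 m) (hf1 : MemLp f 1 m) :
    Tendsto (fun t => ∫ x, |(C.P t f - f) x| ∂m) (𝓝[≥] 0) (𝓝 0) := by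
  have key : ∀ f : M →ₘ[m] ℝ, MemLp f 2 m → MemLp f 1 m → 0 ≤ f →
      Tendsto (fun t => ∫ x, |(C.P t f - f) x| ∂m) (𝓝[≥] 0) (𝓝 0) := by
    intro f hf hf1 h0
    refine L1_of_L2 h0 hf hf1 ?_ ?_
    · filter_upwards [self_mem_nhdsWithin] with t ht
      have h1 := hC.P_L1_nonneg (t := t) ht hf hf1 h0
      exact ⟨hC.P_nonneg ht hf h0, hC.P_mem2 t hf, h1.1, h1.2⟩
    · have h1 := hC.P_cont hf 0
      rw [hC.P_zero_time hf] at h1
      exact h1.mono_left nhdsWithin_le_nhds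
  have k1 := key _ (pprt_mem hf) (pprt_mem hf1) (pprt_nonneg f)
  have k2 := key _ (pprt_mem (mem_neg hf)) (pprt_mem (mem_neg hf1)) (pprt_nonneg (-f))
  have k3 := k1.add k2
  rw [add_zero] at k3
  refine squeeze_zero' (Eventually.of_forall fun t => int_abs_nonneg _) ?_ k3
  filter_upwards [self_mem_nhdsWithin] with t ht
  have e : C.P t f - f = (C.P t (pprt f) - pprt f) - (C.P t (pprt (-f)) - pprt (-f)) := by
    conv_lhs => rw [← pprt_sub f]
    rw [hC.P_sub t (pprt_mem hf) (pprt_mem (mem_neg hf))]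
    abel
  rw [e]
  exact int_abs_sub_le
    (mem_sub (hC.P_L1 ht (pprt_mem hf) (pprt_mem hf1)).1 (pprt_mem hf1))
    (mem_sub (hC.P_L1 ht (pprt_mem (mem_neg hf)) (pprt_mem (mem_neg hf1))).1
      (pprt_mem (mem_neg hf1)))

/-- `J_l f → f` in `L²`, `l ↓ 0` -/
theorem J_tendsto_L2' (hf : MemLp f 2 m) :
    Tendsto (fun l => I ((C.J l f - f) ^ 2)) (𝓝[>] 0) (𝓝 0) := by
  rw [tendsto_iff_seq_tendsto]
  intro ℓ hℓ
  have h1 : ∀ᶠ n in atTop, 0 < ℓ n := hℓ.eventually self_mem_nhdsWithin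
  have h2 : Tendsto ℓ atTop (𝓝 0) := hℓ.mono_right nhdsWithin_le_nhds
  -- make all terms positive
  set ℓ' : ℕ → ℝ := fun n => if 0 < ℓ n then ℓ n else ((n : ℝ) + 1)⁻¹ with hℓ'
  have h3 : ∀ n, 0 < ℓ' n := by
    intro n
    simp only [hℓ']
    split_ifs with h
    · exact h
    · positivity
  have h4 : ℓ' =ᶠ[atTop] ℓ := by
    filter_upwards [h1] with n hn
    simp only [hℓ', if_pos hn]
  have h5 := tendsto_val_iff.1 (hC.gen.R_tendsto h3 (h2.congr' h4.symm) (hf.toLp (f : M → ℝ)))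
  refine h5.congr' ?_
  filter_upwards [h4, h1] with n hn hn'
  simp only [Function.comp]
  rw [hn, hC.R_val hn' hf, toLp_val]

/-- `J_l f → f` in `L¹`, `l ↓ 0` -/
theorem J_L1_cont0 (hf : MemLp f 2 m) (hf1 : MemLp f 1 m) :
    Tendsto (fun l => ∫ x, |(C.J l f - f) x| ∂m) (𝓝[>] 0) (𝓝 0) := by
  have key : ∀ f : M →ₘ[m] ℝ, MemLp f 2 m → MemLp f 1 m → 0 ≤ f →
      Tendsto (fun l => ∫ x, |(C.J l f - f) x| ∂m) (𝓝[>] 0) (𝓝 0) := by
    intro f hf hf1 h0
    refine L1_of_L2 h0 hf hf1 ?_ (J_tendsto_L2' hC hf)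
    filter_upwards [self_mem_nhdsWithin] with t ht
    have h1 := hC.J_L1 ht hf hf1 h0
    exact ⟨hC.J_nonneg ht hf h0, hC.J_mem2 ht hf, h1.1, h1.2⟩
  have k1 := key _ (pprt_mem hf) (pprt_mem hf1) (pprt_nonneg f)
  have k2 := key _ (pprt_mem (mem_neg hf)) (pprt_mem (mem_neg hf1)) (pprt_nonneg (-f))
  have k3 := k1.add k2
  rw [add_zero] at k3
  refine squeeze_zero' (Eventually.of_forall fun t => int_abs_nonneg _) ?_ k3
  filter_upwards [self_mem_nhdsWithin] with t ht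
  have ht' : (0 : ℝ) < t := ht
  have e : C.J t f - f = (C.J t (pprt f) - pprt f) - (C.J t (pprt (-f)) - pprt (-f)) := by
    conv_lhs => rw [← pprt_sub f]
    rw [hC.J_sub ht' (pprt_mem hf) (pprt_mem (mem_neg hf))]
    abel
  rw [e]
  exact int_abs_sub_le
    (mem_sub (hC.J_L1 ht' (pprt_mem hf) (pprt_mem hf1) (pprt_nonneg f)).1 (pprt_mem hf1))
    (mem_sub (hC.J_L1 ht' (pprt_mem (mem_neg hf)) (pprt_mem (mem_neg hf1))
      (pprt_nonneg (-f))).1 (pprt_mem (mem_neg hf1)))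

/-- the difference quotient in `L¹` -/
theorem P_quot_le (ht : 0 < t) (hfh : C.IsLap f h) (hf1 : MemLp f 1 m) (hh1 : MemLp h 1 m)
    {S : ℝ} (hS : ∀ s ∈ Icc 0 t, ∫ x, |(C.P s h - h) x| ∂m ≤ S) :
    ∫ x, |(t⁻¹ • (C.P t f - f) - h) x| ∂m ≤ S := by
  have hf2 := hC.memLp _ hfh.1
  have hh2 := hfh.2.1
  have hP1 := (hC.P_L1 ht.le hf2 hf1).1
  have hP2 := hC.P_mem2 t hf2
  refine L1_le_of_dual (mem_sub (mem_smul _ (mem_sub hP1 hf1)) hh1)
    (mem_sub (mem_smul _ (mem_sub hP2 hf2)) hh2) fun g hg2 hg1 => ?_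
  have e1 : I ((t⁻¹ • (C.P t f - f) - h) * g) = t⁻¹ * (I (C.P t f * g) - I (f * g)) - I (h * g) := by
    rw [sub_mul, smul_mul_assoc, sub_mul, I_sub (mem_smul _ (mem_sub (mem_mul_22 hP2 hg2)
      (mem_mul_22 hf2 hg2))) (mem_mul_22 hh2 hg2), I_smul, I_sub (mem_mul_22 hP2 hg2)
      (mem_mul_22 hf2 hg2)]
  rw [e1, ← hC.P_integral ht.le hfh hg2]
  have hcont : Continuous fun s => I (C.P s h * g) := hC.P_cont_I hh2 hg2
  have h1 : ∫ s in (0 : ℝ)..t, I (C.P s h * g) ≤ ∫ s in (0 : ℝ)..t, (S + I (h * g)) := by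
    refine intervalIntegral.integral_mono_on ht.le (hcont.intervalIntegrable _ _)
      intervalIntegrable_const fun s hs => ?_
    have h2 : I (C.P s h * g) - I (h * g) = I ((C.P s h - h) * g) := by
      rw [sub_mul, I_sub (mem_mul_22 (hC.P_mem2 s hh2) hg2) (mem_mul_22 hh2 hg2)]
    have h3 := abs_I_mul_le (mem_sub (hC.P_L1 hs.1 hh2 hh1).1 hh1) hg1
    have h4 := hS s hs
    have h5 := le_abs_self (I ((C.P s h - h) * g))
    linarith
  rw [intervalIntegral.integral_const, smul_eq_mul, sub_zero] at h1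
  have h6 := mul_le_mul_of_nonneg_left h1 (inv_nonneg.2 ht.le)
  rw [← mul_assoc, inv_mul_cancel₀ ht.ne', one_mul] at h6
  linarith

/-- differentiability in `L¹` at time `0` -/
theorem P_L1_deriv0 (hfh : C.IsLap f h) (hf1 : MemLp f 1 m) (hh1 : MemLp h 1 m) :
    Tendsto (fun t => ∫ x, |(t⁻¹ • (C.P t f - f) - h) x| ∂m) (𝓝[>] 0) (𝓝 0) := by
  have h0 := P_L1_cont0 hC hfh.2.1 hh1
  rw [Metric.tendsto_nhds]
  intro ε hε
  have h1 := h0.eventually (gt_mem_nhds (show (0 : ℝ) < ε / 2 by positivity))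
  rw [eventually_nhdsWithin_iff, Metric.eventually_nhds_iff] at h1
  obtain ⟨δ, hδ, h2⟩ := h1
  have h3 : ∀ᶠ t : ℝ in 𝓝[>] 0, t < δ := nhdsWithin_le_nhds (gt_mem_nhds hδ)
  filter_upwards [self_mem_nhdsWithin, h3] with t ht0 ht
  have ht0' : (0 : ℝ) < t := ht0
  rw [Real.dist_eq, sub_zero, abs_of_nonneg (int_abs_nonneg _)]
  refine (P_quot_le hC ht0' hfh hf1 hh1 (S := ε / 2) fun s hs => ?_).trans_lt (by linarith)
  refine (h2 (y := s) ?_ hs.1).le
  rw [Real.dist_eq, sub_zero, abs_of_nonneg hs.1]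
  exact hs.2.trans_lt ht

/-- Lipschitz continuity in `L¹` -/
theorem P_L1_lip0 (ht : 0 ≤ t) (hfh : C.IsLap f h) (hf1 : MemLp f 1 m) (hh1 : MemLp h 1 m) :
    ∫ x, |(C.P t f - f) x| ∂m ≤ t * ∫ x, |h x| ∂m := by
  have hf2 := hC.memLp _ hfh.1
  have hh2 := hfh.2.1
  have hP1 := (hC.P_L1 ht hf2 hf1).1
  have hP2 := hC.P_mem2 t hf2
  refine L1_le_of_dual (mem_sub hP1 hf1) (mem_sub hP2 hf2) fun g hg2 hg1 => ?_
  rw [sub_mul, I_sub (mem_mul_22 hP2 hg2) (mem_mul_22 hf2 hg2), ← hC.P_integral ht hfh hg2]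
  have hcont : Continuous fun s => I (C.P s h * g) := hC.P_cont_I hh2 hg2
  have h1 : ∫ s in (0 : ℝ)..t, I (C.P s h * g) ≤ ∫ s in (0 : ℝ)..t, (∫ x, |h x| ∂m) := by
    refine intervalIntegral.integral_mono_on ht (hcont.intervalIntegrable _ _)
      intervalIntegrable_const fun s hs => ?_
    have h3 := abs_I_mul_le (hC.P_L1 hs.1 hh2 hh1).1 hg1
    have h4 := (hC.P_L1 hs.1 hh2 hh1).2
    have h5 := le_abs_self (I (C.P s h * g))
    linarith
  rwa [intervalIntegral.integral_const, smul_eq_mul, sub_zero] at h1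

theorem P_L1_lip (hs : 0 ≤ s) (hst : s ≤ t) (hfh : C.IsLap f h) (hf1 : MemLp f 1 m)
    (hh1 : MemLp h 1 m) : ∫ x, |(C.P t f - C.P s f) x| ∂m ≤ (t - s) * ∫ x, |h x| ∂m := by
  have hf2 := hC.memLp _ hfh.1
  have hts : 0 ≤ t - s := sub_nonneg.2 hst
  have e : C.P t f - C.P s f = C.P s (C.P (t - s) f - f) := by
    rw [hC.P_sub s (hC.P_mem2 _ hf2) hf2, hC.P_P hs hts hf2, add_sub_cancel]
  rw [e]
  have h1 := (hC.P_L1 hts hf2 hf1).1
  refine (hC.P_L1 hs (mem_sub (hC.P_mem2 _ hf2) hf2) (mem_sub h1 hf1)).2.trans ?_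
  exact P_L1_lip0 hC hts hfh hf1 hh1

/-- continuity in `L¹` at all times -/
theorem P_L1_cont (ht : 0 ≤ t) (hf : MemLp f 2 m) (hf1 : MemLp f 1 m) :
    Tendsto (fun s => ∫ x, |(C.P s f - C.P t f) x| ∂m) (𝓝[≥] 0) (𝓝 (∫ x, |(C.P 0 f - C.P t f) x| ∂m))
      ∧ Tendsto (fun s => ∫ x, |(C.P s f - C.P t f) x| ∂m) (𝓝[Ici 0] t) (𝓝 0) := by
  have h0 := P_L1_cont0 hC hf hf1
  have key : ∀ s r : ℝ, 0 ≤ s → 0 ≤ r →
      ∫ x, |(C.P s f - C.P r f) x| ∂m ≤ ∫ x, |(C.P |s - r| f - f) x| ∂m := by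
    have aux : ∀ s r : ℝ, 0 ≤ r → r ≤ s →
        ∫ x, |(C.P s f - C.P r f) x| ∂m ≤ ∫ x, |(C.P |s - r| f - f) x| ∂m := by
      intro s r hr hrs
      have hts : 0 ≤ s - r := sub_nonneg.2 hrs
      have e : C.P s f - C.P r f = C.P r (C.P (s - r) f - f) := by
        rw [hC.P_sub r (hC.P_mem2 _ hf) hf, hC.P_P hr hts hf, add_sub_cancel]
      rw [e, abs_of_nonneg hts]
      exact (hC.P_L1 hr (mem_sub (hC.P_mem2 _ hf) hf)
        (mem_sub (hC.P_L1 hts hf hf1).1 hf1)).2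
    intro s r hs hr
    rcases le_total r s with h | h
    · exact aux s r hr h
    · rw [int_abs_sub_comm, abs_sub_comm]
      exact aux r s hs h
  have h1 : Tendsto (fun s => ∫ x, |(C.P s f - C.P t f) x| ∂m) (𝓝[Ici 0] t) (𝓝 0) := by
    have h2 : Tendsto (fun s : ℝ => |s - t|) (𝓝[Ici 0] t) (𝓝[≥] 0) := by
      rw [tendsto_nhdsWithin_iff]
      refine ⟨?_, Eventually.of_forall fun s => mem_Ici.2 (abs_nonneg _)⟩
      have h3 : Tendsto (fun s : ℝ => |s - t|) (𝓝 t) (𝓝 |t - t|) :=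
        (continuous_id.sub continuous_const).abs.tendsto t
      rw [sub_self, abs_zero] at h3
      exact h3.mono_left nhdsWithin_le_nhds
    refine squeeze_zero' (Eventually.of_forall fun s => int_abs_nonneg _) ?_ (h0.comp h2)
    filter_upwards [self_mem_nhdsWithin] with s hs
    exact key s t hs ht
  refine ⟨?_, h1⟩
  rw [tendsto_iff_dist_tendsto_zero]
  refine squeeze_zero' (Eventually.of_forall fun s => dist_nonneg) ?_ h0
  filter_upwards [self_mem_nhdsWithin] with s hs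
  have hs' : (0 : ℝ) ≤ s := hs
  have hP : ∀ r : ℝ, 0 ≤ r → MemLp (C.P r f) 1 m := fun r hr => (hC.P_L1 hr hf hf1).1
  have e1 := key s 0 hs' le_rfl
  rw [sub_zero, abs_of_nonneg hs'] at e1
  have e2 : C.P s f - C.P t f = (C.P s f - C.P 0 f) + (C.P 0 f - C.P t f) := by abel
  have e3 : C.P 0 f - C.P t f = (C.P s f - C.P t f) - (C.P s f - C.P 0 f) := by abel
  have e4 := int_abs_add_le (mem_sub (hP s hs') (hP 0 le_rfl)) (mem_sub (hP 0 le_rfl) (hP t ht))
  have e5 := int_abs_sub_le (mem_sub (hP s hs') (hP t ht)) (mem_sub (hP s hs') (hP 0 le_rfl))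
  rw [← e2] at e4
  rw [← e3] at e5
  rw [Real.dist_eq, abs_le]
  constructor <;> linarith

/-- mass of the Laplacian, if mass is conserved -/
theorem I_lap_zero (hm : ∀ t, 0 ≤ t → I (C.P t f) = I f) (hfh : C.IsLap f h)
    (hf1 : MemLp f 1 m) (hh1 : MemLp h 1 m) : I h = 0 := by
  have h1 := P_L1_deriv0 hC hfh hf1 hh1
  have hf2 := hC.memLp _ hfh.1
  have h2 : ∀ᶠ t : ℝ in 𝓝[>] 0, |I h| ≤ ∫ x, |(t⁻¹ • (C.P t f - f) - h) x| ∂m := by
    filter_upwards [self_mem_nhdsWithin] with t ht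
    have ht' : (0 : ℝ) < t := ht
    have hP := (hC.P_L1 ht'.le hf2 hf1).1
    have h3 : I (t⁻¹ • (C.P t f - f) - h) = -I h := by
      rw [I_sub (mem_smul _ (mem_sub hP hf1)) hh1, I_smul, I_sub hP hf1, hm t ht'.le, sub_self,
        mul_zero, zero_sub]
    have h4 := abs_I_le (t⁻¹ • (C.P t f - f) - h)
    rwa [h3, abs_neg] at h4
  have h3 := ge_of_tendsto h1 h2
  exact abs_nonpos_iff.1 h3

end flow

/-! ### the blocks -/

section blocks

open Vale.Agent.P233.RA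

theorem tendsto_half : Tendsto (fun t : ℝ => t / 2) (𝓝[>] 0) (𝓝[>] 0) := by
  rw [tendsto_nhdsWithin_iff]
  constructor
  · have h1 : Tendsto (fun t : ℝ => t / 2) (𝓝 0) (𝓝 (0 / 2)) :=
      (continuous_id.div_const 2).tendsto 0
    rw [zero_div] at h1
    exact h1.mono_left nhdsWithin_le_nhds
  · filter_upwards [self_mem_nhdsWithin] with t ht
    exact half_pos (mem_Ioi.1 ht)

theorem blk_H2a : Blk_H2a.{u} := by
  intro M _ _ _ _ _ m n K θ h f hf hf1
  have hC : IsDir (sob m) := h.isDir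
  refine ⟨?_, J_L1_cont0 hC hf hf1⟩
  have h1 := (P_L1_cont0 hC hf hf1).mono_left
    (nhdsWithin_mono (0 : ℝ) (show Ioi (0 : ℝ) ⊆ Ici 0 from Ioi_subset_Ici_self))
  exact h1.comp tendsto_half

theorem blk_H2c : Blk_H2c.{u} := by
  intro M _ _ _ _ _ m n K θ h ρ ρ' hρ
  have hC : IsDir (sob m) := h.isDir
  constructor
  · have h1 := ((P_L1_deriv0 hC hρ.lap hρ.m1 hρ.m1').comp tendsto_half).const_mul (2 : ℝ)⁻¹
    rw [mul_zero] at h1
    refine h1.congr fun t => ?_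
    simp only [Function.comp]
    have e : t⁻¹ • (Q m t ρ - ρ) - (2 : ℝ)⁻¹ • ρ'
        = (2 : ℝ)⁻¹ • ((t / 2)⁻¹ • ((sob m).P (t / 2) ρ - ρ) - ρ') := by
      unfold Q
      rw [smul_sub (2 : ℝ)⁻¹, smul_smul, show (2 : ℝ)⁻¹ * (t / 2)⁻¹ = t⁻¹ by
        rw [inv_div]
        ring]
    rw [e, int_abs_smul, abs_of_pos (by norm_num : (0 : ℝ) < 2⁻¹)]
  · have key : ∀ s t : ℝ, 0 ≤ s → s ≤ t →
        ∫ x, |(Q m t ρ - Q m s ρ) x| ∂m ≤ |t - s| / 2 * ∫ x, |ρ' x| ∂m := by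
      intro s t hs hst
      have h1 := P_L1_lip hC (s := s / 2) (t := t / 2) (by linarith) (by linarith)
        hρ.lap hρ.m1 hρ.m1'
      rw [abs_of_nonneg (sub_nonneg.2 hst), sub_div]
      exact h1
    intro s t hs ht
    rcases le_total s t with h1 | h1
    · exact key s t hs h1
    · rw [int_abs_sub_comm, abs_sub_comm]
      exact key t s ht h1

theorem mem2_of_1top {f : M →ₘ[m] ℝ} (h1 : MemLp f 1 m) (ht : MemLp f ∞ m) : MemLp f 2 m := by
  refine memLp_two_of_sq ?_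
  rw [sq]
  exact mem_mul_top ht h1

theorem blk_H2b_of (hm : Blk_H1.{u}) : Blk_H2b.{u} := by
  intro M _ _ _ _ _ m n K θ h
  have hC : IsDir (sob m) := h.isDir
  have hmass := hm M m n K θ h
  constructor
  · intro ρ ρ' hρ t ht
    have ht2 : 0 ≤ t / 2 := by linarith
    have hρ2 := hC.memLp _ hρ.lap.1
    exact ⟨hC.P_isLap_of _ hρ.lap, hC.P_nonneg ht2 hρ2 hρ.nonneg,
      (hmass t ht ρ hρ2 hρ.m1).trans hρ.mass, (hC.P_L1 ht2 hρ2 hρ.m1).1,
      hC.P_memTop ht2 hρ2 hρ.mt, (hC.P_L1 ht2 hρ.lap.2.1 hρ.m1').1,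
      hC.P_memTop ht2 hρ.lap.2.1 hρ.mt'⟩
  · intro f h0 hI hf1 hft l hl
    have hf2 := mem2_of_1top hf1 hft
    have hJ1 := (hC.J_L1 hl hf2 hf1 h0).1
    have hlap := hC.J_isLap hl hf2
    have h1' : MemLp (l⁻¹ • ((sob m).J l f - f) : M →ₘ[m] ℝ) 1 m := mem_smul _ (mem_sub hJ1 hf1)
    have hJt : MemLp ((sob m).J l f) ∞ m := by
      obtain ⟨B, hB⟩ := mem_top_iff.1 hft
      exact mem_top_iff.2 ⟨B, hC.J_bdd hl hf2 hB⟩
    have h2 : I (l⁻¹ • ((sob m).J l f - f)) = 0 := by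
      refine I_lap_zero hC (fun t ht => ?_) hlap hJ1 h1'
      have h3 := hmass (2 * t) (by linarith) _ (hC.memLp _ hlap.1) hJ1
      unfold Q at h3
      rwa [mul_div_cancel_left₀ t (two_ne_zero' ℝ)] at h3
    rw [I_smul, I_sub hJ1 hf1] at h2
    have h4 : I ((sob m).J l f) = 1 := by
      have h5 : l⁻¹ ≠ 0 := inv_ne_zero hl.ne'
      have h6 := (mul_eq_zero.1 h2).resolve_left h5
      linarith
    exact ⟨hlap, hC.J_nonneg hl hf2 h0, h4, hJ1, hJt, h1', mem_smul _ (mem_sub hJt hft)⟩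

end blocks

end Vale.Agent.P233.H982
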