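import Vale.Agent.P233.RA.Defs
import Vale.Agent.P233.H183.Unit
import Vale.Agent.P233.H589.Lat

/-! P233, RCDA, block H3: the Laplacian comparison for the truncated function `min (g_y, δ) - δ`,
tested with all nonnegative Sobolev functions. -/

set_option linter.all false

open MeasureTheory Filter Topology Set
open scoped ENNReal NNReal

universe u

namespace Vale.Agent.P233.H982

open Vale.Agent.P233.RA

/-! ### the truncated function -/

section metric

variable {M : Type u} [MetricSpace M]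

theorem cc_eq (δ : ℝ) (x y : M) : cc δ x y = min (gg y x) δ := rfl

theorem gg_nonneg (y x : M) : 0 ≤ gg y x := by unfold gg; positivity

theorem cc_nonneg {δ : ℝ} (hδ : 0 ≤ δ) (x y : M) : 0 ≤ cc δ x y := le_min (by positivity) hδ

theorem cc_le (δ : ℝ) (x y : M) : cc δ x y ≤ δ := min_le_right _ _

theorem ww_nonpos (δ : ℝ) (y x : M) : ww δ y x ≤ 0 := by
  unfold ww
  linarith [cc_le δ x y]

theorem ww_ge {δ : ℝ} (hδ : 0 ≤ δ) (y x : M) : -δ ≤ ww δ y x := by
  unfold ww
  linarith [cc_nonneg hδ x y]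

theorem abs_ww_le {δ : ℝ} (hδ : 0 ≤ δ) (y x : M) : |ww δ y x| ≤ δ :=
  abs_le.2 ⟨ww_ge hδ y x, (ww_nonpos δ y x).trans hδ⟩

theorem ww_of_lt {δ : ℝ} {y x : M} (h : gg y x < δ) : ww δ y x = gg y x - δ := by
  unfold ww
  rw [cc_eq, min_eq_left h.le]

theorem ww_of_ge {δ : ℝ} {y x : M} (h : δ ≤ gg y x) : ww δ y x = 0 := by
  unfold ww
  rw [cc_eq, min_eq_right h, sub_self]

theorem ww_neg_iff {δ : ℝ} {y x : M} : ww δ y x < 0 ↔ gg y x < δ := by
  constructor
  · intro h
    by_contra h1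
    rw [ww_of_ge (not_lt.1 h1)] at h
    exact lt_irrefl _ h
  · intro h
    rw [ww_of_lt h]
    linarith

theorem ww_far {δ : ℝ} (hδ : 0 ≤ δ) (y : M) (x : M) (h : √(2 * δ) ≤ dist y x) : ww δ y x = 0 := by
  apply ww_of_ge
  have h1 : √(2 * δ) ^ 2 = 2 * δ := Real.sq_sqrt (by positivity)
  have h2 : √(2 * δ) ^ 2 ≤ dist y x ^ 2 := pow_le_pow_left₀ (Real.sqrt_nonneg _) h 2
  unfold gg
  rw [dist_comm]
  linarith

theorem abs_ww_sub {δ : ℝ} (hδ : 0 ≤ δ) (y x x' : M) :
    |ww δ y x - ww δ y x'| ≤ √(2 * δ) * dist x x' := by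
  set s := √(2 * δ) with hs
  have hs0 : 0 ≤ s := Real.sqrt_nonneg _
  have hs2 : s ^ 2 = 2 * δ := Real.sq_sqrt (by positivity)
  have key : ∀ a : ℝ, 0 ≤ a → min (a ^ 2 / 2) δ = (min a s) ^ 2 / 2 := by
    intro a ha
    rcases le_total a s with h | h
    · rw [min_eq_left h, min_eq_left]
      have : a ^ 2 ≤ s ^ 2 := pow_le_pow_left₀ ha h 2
      linarith
    · rw [min_eq_right h, min_eq_right, hs2]
      · ring
      · have : s ^ 2 ≤ a ^ 2 := pow_le_pow_left₀ hs0 h 2
        linarith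
  have e : ww δ y x - ww δ y x'
      = (min (dist x y) s - min (dist x' y) s) * ((min (dist x y) s + min (dist x' y) s) / 2) := by
    unfold ww cc
    rw [key _ dist_nonneg, key _ dist_nonneg]
    ring
  have h1 : |min (dist x y) s - min (dist x' y) s| ≤ dist x x' := by
    have h2 := abs_min_sub_min_le_max (dist x y) s (dist x' y) s
    have h3 := abs_dist_sub_le x x' y
    have h4 : max |dist x y - dist x' y| |s - s| = |dist x y - dist x' y| := by
      rw [sub_self, abs_zero]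
      exact max_eq_left (abs_nonneg _)
    rw [h4] at h2
    exact h2.trans h3
  have h2 : |(min (dist x y) s + min (dist x' y) s) / 2| ≤ s := by
    have h3 : 0 ≤ min (dist x y) s := le_min dist_nonneg hs0
    have h4 : 0 ≤ min (dist x' y) s := le_min dist_nonneg hs0
    have h5 : min (dist x y) s ≤ s := min_le_right _ _
    have h6 : min (dist x' y) s ≤ s := min_le_right _ _
    rw [abs_of_nonneg (by linarith)]
    linarith
  rw [e, abs_mul, mul_comm s]
  exact mul_le_mul h1 h2 (abs_nonneg _) dist_nonneg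

theorem ww_lip {δ : ℝ} (hδ : 0 ≤ δ) (y : M) :
    LipschitzWith (Real.toNNReal (√(2 * δ))) (ww δ y) := by
  refine LipschitzWith.of_dist_le_mul fun x x' => ?_
  rw [Real.dist_eq, Real.coe_toNNReal _ (Real.sqrt_nonneg _)]
  exact abs_ww_sub hδ y x x'

end metric

/-! ### the class of `w_y` -/

variable {M : Type u} [MetricSpace M] [MeasurableSpace M] [BorelSpace M]
  {m : Measure M} {n : ℕ} {K θ : ℝ}

theorem ww_ae {δ : ℝ} (hδ : 0 ≤ δ) (y : M) : ∀ᵐ x ∂m, cl m (ww δ y) x = ww δ y x :=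
  H183.cl_cont (ww_lip hδ y).continuous

theorem ww_A (hfin : ∀ (x : M) (r : ℝ), m (Metric.ball x r) < ∞) {δ : ℝ} (hδ : 0 ≤ δ) (y : M) :
    cl m (ww δ y) ∈ (sob m).A :=
  H183.cl_mem_A hfin (ww_lip hδ y) (x₀ := y) (R := √(2 * δ)) (ww_far hδ y)

theorem Γ_ww_le [SecondCountableTopology M] (hfin : ∀ (x : M) (r : ℝ), m (Metric.ball x r) < ∞)
    {δ : ℝ} (hδ : 0 ≤ δ) (y : M) :
    ∀ᵐ x ∂m, (sob m).Γ (cl m (ww δ y)) (cl m (ww δ y)) x ≤ 2 * δ := by
  filter_upwards [H183.Γ_cl_le hfin (ww_lip hδ y) (x₀ := y) (R := √(2 * δ)) (ww_far hδ y)]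
    with x hx
  rw [Real.coe_toNNReal _ (Real.sqrt_nonneg _), Real.sq_sqrt (by positivity)] at hx
  exact hx

theorem Γ_ww_top [SecondCountableTopology M] (hfin : ∀ (x : M) (r : ℝ), m (Metric.ball x r) < ∞)
    (hC : IsDir (sob m)) {δ : ℝ} (hδ : 0 ≤ δ) (y : M) :
    MemLp ((sob m).Γ (cl m (ww δ y)) (cl m (ww δ y))) ∞ m := by
  rw [mem_top_iff]
  refine ⟨2 * δ, ?_⟩
  filter_upwards [Γ_ww_le hfin hδ y, hC.Γ_nonneg_ae (ww_A hfin hδ y).1] with x h1 h2
  rw [abs_of_nonneg h2]
  exact h1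

theorem measure_gg_lt (hfin : ∀ (x : M) (r : ℝ), m (Metric.ball x r) < ∞) (δ : ℝ) (y : M) :
    m {x | gg y x < δ} < ∞ := by
  refine lt_of_le_of_lt (measure_mono ?_) (hfin y (√(2 * δ) + 1))
  intro x hx
  simp only [mem_setOf_eq, gg] at hx
  rw [Metric.mem_ball]
  have h1 : dist x y ≤ √(2 * δ) := Real.le_sqrt_of_sq_le (by linarith)
  linarith

theorem measurable_gg (y : M) : Measurable (gg y) := by
  unfold gg
  exact (((continuous_id.dist (continuous_const (y := y))).pow 2).div_const 2).measurable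

theorem measurableSet_gg (δ : ℝ) (y : M) : MeasurableSet {x | gg y x < δ} :=
  measurableSet_lt (measurable_gg y) measurable_const

/-- the right-hand side is integrable -/
theorem lc_integrable (hfin : ∀ (x : M) (r : ℝ), m (Metric.ball x r) < ∞) (a b δ : ℝ) (y : M)
    {φ : M →ₘ[m] ℝ} (hφ : MemLp φ 2 m) :
    IntegrableOn (fun x => (a - b * gg y x) * φ x) {x | gg y x < δ} m := by
  have hms := measurableSet_gg δ y
  have hfi : IsFiniteMeasure (m.restrict {x | gg y x < δ}) :=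
    ⟨by rw [Measure.restrict_apply_univ]; exact measure_gg_lt hfin δ y⟩
  have h1 : Integrable (φ : M → ℝ) (m.restrict {x | gg y x < δ}) :=
    (hφ.restrict _).integrable (by norm_num)
  refine h1.bdd_mul (c := |a| + |b| * |δ|) ?_ ?_
  · exact ((measurable_const.sub (measurable_const.mul (measurable_gg y)))).aestronglyMeasurable
  · filter_upwards [ae_restrict_mem hms] with x hx
    have h2 : gg y x < δ := hx
    have h3 := gg_nonneg y x
    rw [Real.norm_eq_abs]
    calc |a - b * gg y x| ≤ |a| + |b * gg y x| := abs_sub _ _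
      _ = |a| + |b| * gg y x := by rw [abs_mul, abs_of_nonneg h3]
      _ ≤ |a| + |b| * |δ| := by
          have : gg y x ≤ |δ| := h2.le.trans (le_abs_self δ)
          gcongr

variable [SecondCountableTopology M]

/-- **H3, first part.** The Laplacian comparison for `w_y = min (g_y, δ) - δ`. -/
theorem lc_int (h : NSp m n K θ) {δ : ℝ} (hδ : 0 < δ) (y : M) {φ : M →ₘ[m] ℝ}
    (hφ : φ ∈ (sob m).W) (h0 : 0 ≤ φ) :
    -I ((sob m).Γ (cl m (ww δ y)) φ)
      ≤ ∫ x in {x | gg y x < δ}, ((n : ℝ) - 2 * K / 3 * gg y x) * φ x ∂m := by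
  have hC : IsDir (sob m) := h.isDir
  have hms := measurableSet_gg δ y
  set w : M →ₘ[m] ℝ := cl m (ww δ y) with hw
  have hwA : w ∈ (sob m).A := ww_A h.fin hδ.le y
  have hwae : ∀ᵐ x ∂m, w x = ww δ y x := ww_ae hδ.le y
  have hwΓ : MemLp ((sob m).Γ w w) ∞ m := Γ_ww_top h.fin hC hδ.le y
  have hwK : ∀ᵐ x ∂m, |w x| ≤ δ := by
    filter_upwards [hwae] with x hx
    rw [hx]; exact abs_ww_le hδ.le y x
  have hwab : ∀ᵐ x ∂m, -δ ≤ w x ∧ w x ≤ 0 := by
    filter_upwards [hwae] with x hx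
    rw [hx]; exact ⟨ww_ge hδ.le y x, ww_nonpos δ y x⟩
  have hφ2 := hC.memLp φ hφ
  -- the approximations of the indicator of `{w < 0}`
  set η : ℕ → ℝ → ℝ := fun k t => 1 - Real.exp (((k : ℝ) + 1) * t) with hη
  set η' : ℕ → ℝ → ℝ := fun k t => -(((k : ℝ) + 1) * Real.exp (((k : ℝ) + 1) * t)) with hη'
  have hηc : ∀ k, Continuous (η k) := fun k => by simp only [hη]; fun_prop
  have hη'c : ∀ k, Continuous (η' k) := fun k => by simp only [hη']; fun_prop
  have hηd : ∀ k t, HasDerivAt (η k) (η' k t) t := by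
    intro k t
    have h1 : HasDerivAt (fun t : ℝ => ((k : ℝ) + 1) * t) ((k : ℝ) + 1) t := by
      simpa using (hasDerivAt_id t).const_mul ((k : ℝ) + 1)
    have h2 := (h1.exp).const_sub 1
    refine h2.congr_deriv ?_
    simp only [hη']
    ring
  have hch := fun k => hC.chain_bdd hwA.1 hwK (hηc k) (hη'c k)
    (fun t _ => (hηd k t).hasDerivWithinAt) (by simp [hη])
  set u : ℕ → M →ₘ[m] ℝ := fun k => AEEqFun.comp (η k) (hηc k) w with hu
  have huae : ∀ k, ∀ᵐ x ∂m, u k x = 1 - Real.exp (((k : ℝ) + 1) * ww δ y x) := by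
    intro k
    filter_upwards [AEEqFun.coeFn_comp (η k) (hηc k) w, hwae] with x h1 h2
    simp only [hu]
    rw [h1, Function.comp_apply, h2]
  have hu01 : ∀ k, ∀ᵐ x ∂m, 0 ≤ u k x ∧ u k x ≤ 1 := by
    intro k
    filter_upwards [huae k] with x hx
    rw [hx]
    have h1 : ((k : ℝ) + 1) * ww δ y x ≤ 0 :=
      mul_nonpos_of_nonneg_of_nonpos (by positivity) (ww_nonpos δ y x)
    have h2 := Real.exp_le_one_iff.2 h1
    have h3 := Real.exp_pos (((k : ℝ) + 1) * ww δ y x)
    constructor <;> linarith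
  have huA : ∀ k, u k ∈ (sob m).A := by
    intro k
    refine ⟨(hch k).1, mem_top_iff.2 ⟨1, ?_⟩⟩
    filter_upwards [hu01 k] with x hx
    exact abs_le.2 ⟨by linarith [hx.1], hx.2⟩
  have hη'top : ∀ k, MemLp (AEEqFun.comp (η' k) (hη'c k) w) ∞ m := fun k =>
    hc_comp_top hwab (hη'c k)
  have huΓ : ∀ k, MemLp ((sob m).Γ (u k) (u k)) ∞ m := by
    intro k
    have h1 : (sob m).Γ (u k) (u k) = AEEqFun.comp (η' k) (hη'c k) w
        * (AEEqFun.comp (η' k) (hη'c k) w * (sob m).Γ w w) := by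
      rw [(hch k).2 _ (huA k).1, hC.symm w hwA.1 _ (huA k).1, (hch k).2 _ hwA.1]
    rw [h1]
    exact mem_mul_top (hη'top k) (mem_mul_top (hη'top k) hwΓ)
  have huφ : ∀ k, u k * φ ∈ (sob m).W := fun k => hC.mul_mem_lip (huA k) (huΓ k) hφ
  -- the comparison for the approximations
  have key : ∀ k, -I (u k * (sob m).Γ w φ)
      ≤ ∫ x in {x | gg y x < δ}, ((n : ℝ) - 2 * K / 3 * gg y x) * (u k * φ : M →ₘ[m] ℝ) x ∂m := by
    intro k
    have h1 := h.lc y δ hδ (u k * φ) (huφ k) (by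
      rw [nonneg_iff_ae]
      filter_upwards [hu01 k, nonneg_iff_ae.1 h0, mul_ae (u k) φ] with x a1 a2 a3
      rw [a3]; exact mul_nonneg a1.1 a2) (by
      filter_upwards [huae k, mul_ae (u k) φ] with x a1 a2 hx
      rw [a2, a1, ww_of_ge hx]; simp)
    have h2 : ∫ x, ((n : ℝ) - 2 * K / 3 * gg y x) * (u k * φ : M →ₘ[m] ℝ) x ∂m
        = ∫ x in {x | gg y x < δ}, ((n : ℝ) - 2 * K / 3 * gg y x) * (u k * φ : M →ₘ[m] ℝ) x ∂m := by
      rw [← integral_indicator hms]
      refine integral_congr_ae ?_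
      filter_upwards [huae k, mul_ae (u k) φ] with x a1 a2
      by_cases hx : gg y x < δ
      · rw [indicator_of_mem (by exact hx)]
      · rw [indicator_of_notMem (by exact hx), a2, a1, ww_of_ge (not_lt.1 hx)]
        simp
    rw [h2] at h1
    refine le_trans ?_ h1
    have h3 : (sob m).Γ w (u k * φ) = u k * (sob m).Γ w φ + φ * (sob m).Γ (u k) w := by
      rw [hC.symm w hwA.1 _ (huφ k), hC.Γ_mul_left_lip (huA k) (huΓ k) hφ hwA.1,
        hC.symm φ hφ w hwA.1]
    have h4 : I (φ * (sob m).Γ (u k) w) ≤ 0 := by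
      have h5 : 0 ≤ -(φ * (sob m).Γ (u k) w) := by
        rw [(hch k).2 _ hwA.1, nonneg_iff_ae]
        filter_upwards [neg_ae (φ * (AEEqFun.comp (η' k) (hη'c k) w * (sob m).Γ w w)),
          mul_ae φ (AEEqFun.comp (η' k) (hη'c k) w * (sob m).Γ w w),
          mul_ae (AEEqFun.comp (η' k) (hη'c k) w) ((sob m).Γ w w),
          AEEqFun.coeFn_comp (η' k) (hη'c k) w, hC.Γ_nonneg_ae hwA.1, nonneg_iff_ae.1 h0]
          with x a1 a2 a3 a4 a5 a6
        rw [a1, a2, a3, a4, Function.comp_apply]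
        simp only [hη']
        have b1 : 0 ≤ ((k : ℝ) + 1) * Real.exp (((k : ℝ) + 1) * w x) := by positivity
        have b2 := mul_nonneg a6 (mul_nonneg b1 a5)
        linarith
      have h6 := I_nonneg h5
      rw [I_neg] at h6
      linarith
    have i1 : MemLp (u k * (sob m).Γ w φ) 1 m := mem_mul_top (huA k).2 (hC.Γ_mem1 hwA.1 hφ)
    have i2 : MemLp (φ * (sob m).Γ (u k) w) 1 m :=
      mem_mul_22 hφ2 (hC.Γ_mem2 (huA k).1 (huΓ k) hwA.1)
    rw [h3, I_add i1 i2]
    linarith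
  -- limits
  have hlimw : ∀ᵐ x ∂m, Tendsto (fun k => u k x) atTop
      (𝓝 ({x | gg y x < δ}.indicator (fun _ => (1 : ℝ)) x)) := by
    have h1 : ∀ᵐ x ∂m, ∀ k, u k x = 1 - Real.exp (((k : ℝ) + 1) * ww δ y x) :=
      ae_all_iff.2 huae
    filter_upwards [h1] with x hx
    simp only [hx]
    by_cases hx' : gg y x < δ
    · rw [indicator_of_mem (by exact hx')]
      have h2 : ww δ y x < 0 := ww_neg_iff.2 hx'
      have h3 : Tendsto (fun k : ℕ => ((k : ℝ) + 1) * ww δ y x) atTop atBot := by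
        have h4 : Tendsto (fun k : ℕ => (k : ℝ) + 1) atTop atTop :=
          tendsto_atTop_add_const_right _ _ tendsto_natCast_atTop_atTop
        exact h4.atTop_mul_const_of_neg h2
      have h5 := (Real.tendsto_exp_atBot.comp h3).const_sub 1
      simpa using h5
    · rw [indicator_of_notMem (by exact hx'), ww_of_ge (not_lt.1 hx')]
      simp
  have hind : AEStronglyMeasurable ({x | gg y x < δ}.indicator (fun _ => (1 : ℝ))) m :=
    (measurable_const.indicator hms).aestronglyMeasurable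
  have hL : Tendsto (fun k => I (u k * (sob m).Γ w φ)) atTop (𝓝 (I ((sob m).Γ w φ))) := by
    have h1 := I_tendsto_of_bdd (u := u) (v := cl m ({x | gg y x < δ}.indicator (fun _ => (1 : ℝ))))
      (G := (sob m).Γ w φ) (K := 1) (fun k => by
        filter_upwards [hu01 k] with x hx
        exact abs_le.2 ⟨by linarith [hx.1], hx.2⟩) (by
        filter_upwards [hlimw, H183.cl_ae hind] with x a1 a2
        rw [a2]; exact a1) (hC.Γ_mem1 hwA.1 hφ)
    have h2 : cl m ({x | gg y x < δ}.indicator (fun _ => (1 : ℝ))) * (sob m).Γ w φ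
        = (sob m).Γ w φ := by
      rw [eq_iff_ae]
      filter_upwards [mul_ae (cl m ({x | gg y x < δ}.indicator (fun _ => (1 : ℝ))))
        ((sob m).Γ w φ), H183.cl_ae hind, hC.Γ_level hwA.1 hφ 0, hwae] with x a1 a2 a3 a4
      rw [a1, a2]
      by_cases hx : gg y x < δ
      · rw [indicator_of_mem (by exact hx), one_mul]
      · rw [indicator_of_notMem (by exact hx), a3 (by rw [a4, ww_of_ge (not_lt.1 hx)]), zero_mul]
    rwa [h2] at h1
  have hR : Tendsto (fun k => ∫ x in {x | gg y x < δ},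
      ((n : ℝ) - 2 * K / 3 * gg y x) * (u k * φ : M →ₘ[m] ℝ) x ∂m) atTop
      (𝓝 (∫ x in {x | gg y x < δ}, ((n : ℝ) - 2 * K / 3 * gg y x) * φ x ∂m)) := by
    refine tendsto_integral_of_dominated_convergence
      (fun x => |((n : ℝ) - 2 * K / 3 * gg y x) * φ x|) ?_ ?_ ?_ ?_
    · intro k
      exact ((measurable_const.sub (measurable_const.mul (measurable_gg y))).aestronglyMeasurable.mul
        (AEEqFun.aestronglyMeasurable _)).restrict
    · exact (lc_integrable h.fin _ _ δ y hφ2).abs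
    · intro k
      refine ae_restrict_of_ae ?_
      filter_upwards [hu01 k, mul_ae (u k) φ] with x a1 a2
      rw [a2, Real.norm_eq_abs, abs_mul, abs_mul, abs_mul, abs_of_nonneg a1.1]
      refine mul_le_mul_of_nonneg_left ?_ (abs_nonneg _)
      exact mul_le_of_le_one_left (abs_nonneg _) a1.2
    · rw [ae_restrict_iff' hms]
      have h1 : ∀ᵐ x ∂m, ∀ k, (u k * φ : M →ₘ[m] ℝ) x = u k x * φ x :=
        ae_all_iff.2 fun k => mul_ae (u k) φ
      filter_upwards [hlimw, h1] with x a1 a2 hx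
      rw [indicator_of_mem (by exact hx)] at a1
      simp only [a2]
      have h3 := (a1.mul_const (φ x)).const_mul ((n : ℝ) - 2 * K / 3 * gg y x)
      simpa using h3
  exact le_of_tendsto_of_tendsto' hL.neg hR key

end Vale.Agent.P233.H982
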