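import Vale.Agent.P233.RA.IfHK
import Vale.Agent.P233.H982.RH3

/-! P233, RCDA, block H3b: the heat flow of the truncated squared distance. -/

set_option linter.all false

open MeasureTheory Filter Topology Set
open scoped ENNReal NNReal

universe u

namespace Vale.Agent.P233.H982

open Vale.Agent.P233.RA

/-! ### real variable -/

theorem exp_le_quad (x : ℝ) : Real.exp x ≤ 1 + x + x ^ 2 * Real.exp |x| := by
  have h := Complex.norm_exp_sub_sum_le_norm_mul_exp (x : ℂ) 2
  have h1 : Complex.exp (x : ℂ) - ∑ i ∈ Finset.range 2, (x : ℂ) ^ i / (Nat.factorial i)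
      = ((Real.exp x - (1 + x) : ℝ) : ℂ) := by
    rw [Finset.sum_range_succ, Finset.sum_range_one]
    simp
  rw [h1, Complex.norm_real, Complex.norm_real, Real.norm_eq_abs, Real.norm_eq_abs, sq_abs] at h
  have := (abs_le.1 h).2
  linarith

theorem exp_le_lin (x : ℝ) : Real.exp x ≤ 1 + |x| * Real.exp |x| := by
  have h1 : Real.exp x ≤ Real.exp |x| := Real.exp_le_exp.2 (le_abs_self x)
  have h2 := Real.add_one_le_exp (-|x|)
  have h3 := Real.exp_pos |x|
  have h4 : Real.exp (-|x|) * Real.exp |x| = 1 := by rw [← Real.exp_add]; simp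
  have h5 := mul_le_mul_of_nonneg_right h2 h3.le
  rw [h4] at h5
  linarith

/-- the constant of the second order term -/
noncomputable def dA (n : ℕ) (K δ : ℝ) : ℝ :=
  (K ^ 2 * δ / 9 + n * |K| / 6) * Real.exp (|K| / 3)

theorem dA_nonneg (n : ℕ) (K : ℝ) {δ : ℝ} (hδ : 0 ≤ δ) : 0 ≤ dA n K δ := by
  unfold dA; positivity

theorem gron_expand {n : ℕ} {K δ T U₀ c U : ℝ} (hT : 0 ≤ T) (hT1 : T ≤ 1) (hU : 0 ≤ U₀)
    (hc : 0 ≤ c) (hUc : U₀ ≤ δ * c)
    (h : Real.exp (K * T / 3) * U ≤ U₀ + n / 2 * c * ∫ s in (0 : ℝ)..T, Real.exp (K * s / 3)) :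
    U ≤ U₀ + T / 2 * (n * c - 2 * K / 3 * U₀) + dA n K δ * T ^ 2 * c := by
  have hexp : ∀ s : ℝ, Real.exp (-(K * T / 3)) * Real.exp (K * s / 3)
      = Real.exp (K * (s - T) / 3) := by
    intro s
    rw [← Real.exp_add]
    congr 1
    ring
  have h1 : U ≤ Real.exp (-(K * T / 3)) * U₀
      + n / 2 * c * ∫ s in (0 : ℝ)..T, Real.exp (K * (s - T) / 3) := by
    have h2 := mul_le_mul_of_nonneg_left h (Real.exp_pos (-(K * T / 3))).le
    rw [← mul_assoc, ← Real.exp_add, neg_add_cancel, Real.exp_zero, one_mul] at h2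
    have h3 : ∫ s in (0 : ℝ)..T, Real.exp (K * (s - T) / 3)
        = Real.exp (-(K * T / 3)) * ∫ s in (0 : ℝ)..T, Real.exp (K * s / 3) := by
      rw [← intervalIntegral.integral_const_mul]
      refine intervalIntegral.integral_congr fun s _ => ?_
      exact (hexp s).symm
    rw [h3]
    linarith
  have hB : |K| * T / 3 ≤ |K| / 3 := by
    have : |K| * T ≤ |K| * 1 := mul_le_mul_of_nonneg_left hT1 (abs_nonneg K)
    linarith
  have hE : Real.exp (|K| * T / 3) ≤ Real.exp (|K| / 3) := Real.exp_le_exp.2 hB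
  -- first term
  have h2 : Real.exp (-(K * T / 3)) * U₀
      ≤ (1 - K * T / 3) * U₀ + K ^ 2 * δ / 9 * Real.exp (|K| / 3) * T ^ 2 * c := by
    have e1 := exp_le_quad (-(K * T / 3))
    rw [abs_neg, abs_div, abs_mul, abs_of_nonneg hT, abs_of_pos (by norm_num : (0 : ℝ) < 3)] at e1
    have e2 : (-(K * T / 3)) ^ 2 * Real.exp (|K| * T / 3) ≤ (K * T / 3) ^ 2 * Real.exp (|K| / 3) := by
      rw [neg_sq]
      exact mul_le_mul_of_nonneg_left hE (sq_nonneg _)
    have e3 : Real.exp (-(K * T / 3)) ≤ (1 - K * T / 3) + (K * T / 3) ^ 2 * Real.exp (|K| / 3) := by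
      linarith
    have e4 := mul_le_mul_of_nonneg_right e3 hU
    have e5 : (K * T / 3) ^ 2 * Real.exp (|K| / 3) * U₀
        ≤ (K * T / 3) ^ 2 * Real.exp (|K| / 3) * (δ * c) :=
      mul_le_mul_of_nonneg_left hUc (by positivity)
    calc _ ≤ _ := e4
      _ = (1 - K * T / 3) * U₀ + (K * T / 3) ^ 2 * Real.exp (|K| / 3) * U₀ := by ring
      _ ≤ (1 - K * T / 3) * U₀ + (K * T / 3) ^ 2 * Real.exp (|K| / 3) * (δ * c) := by linarith
      _ = _ := by ring
  -- second term
  have h3 : ∫ s in (0 : ℝ)..T, Real.exp (K * (s - T) / 3)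
      ≤ T + |K| / 3 * Real.exp (|K| / 3) * T ^ 2 := by
    have e1 : ∫ s in (0 : ℝ)..T, Real.exp (K * (s - T) / 3)
        ≤ ∫ s in (0 : ℝ)..T, (1 + |K| / 3 * Real.exp (|K| / 3) * T) := by
      refine intervalIntegral.integral_mono_on hT ?_ intervalIntegrable_const fun s hs => ?_
      · exact (by fun_prop : Continuous fun s : ℝ => Real.exp (K * (s - T) / 3)).intervalIntegrable
          _ _
      · have e2 := exp_le_lin (K * (s - T) / 3)
        have e3 : |K * (s - T) / 3| ≤ |K| * T / 3 := by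
          rw [abs_div, abs_mul, abs_of_pos (by norm_num : (0 : ℝ) < 3)]
          have : |s - T| ≤ T := abs_le.2 ⟨by linarith [hs.1], by linarith [hs.2]⟩
          have := mul_le_mul_of_nonneg_left this (abs_nonneg K)
          linarith
        have e4 : |K * (s - T) / 3| * Real.exp |K * (s - T) / 3|
            ≤ |K| * T / 3 * Real.exp (|K| / 3) := by
          refine mul_le_mul e3 (Real.exp_le_exp.2 (e3.trans hB)) (Real.exp_pos _).le ?_
          positivity
        calc _ ≤ _ := e2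
          _ ≤ 1 + |K| * T / 3 * Real.exp (|K| / 3) := by linarith
          _ = _ := by ring
    rw [intervalIntegral.integral_const, smul_eq_mul, sub_zero] at e1
    calc _ ≤ _ := e1
      _ = _ := by ring
  have h4 : n / 2 * c * ∫ s in (0 : ℝ)..T, Real.exp (K * (s - T) / 3)
      ≤ n / 2 * c * (T + |K| / 3 * Real.exp (|K| / 3) * T ^ 2) :=
    mul_le_mul_of_nonneg_left h3 (by positivity)
  calc U ≤ _ := h1
    _ ≤ ((1 - K * T / 3) * U₀ + K ^ 2 * δ / 9 * Real.exp (|K| / 3) * T ^ 2 * c)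
        + n / 2 * c * (T + |K| / 3 * Real.exp (|K| / 3) * T ^ 2) := add_le_add h2 h4
    _ = _ := by unfold dA; ring

/-! ### the derivative of `t ↦ ∫ P_t f g` for `f ∈ L²` -/

section abstract

variable {M : Type*} [MeasurableSpace M] {m : Measure M} {C : Calc m}

theorem P_hasDeriv_I2 (hC : IsDir C) {t : ℝ} (ht : 0 < t) {f g : M →ₘ[m] ℝ} (hf : MemLp f 2 m)
    (hg : MemLp g 2 m) :
    HasDerivAt (fun s => I (C.P s f * g)) (I (C.lap (C.P t f) * g)) t := by
  have h0 : 0 < t / 2 := by positivity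
  have h1 := hC.P_hasDeriv_I h0 (hC.P_isLap h0 hf) hg
  have h2 : HasDerivAt (fun s : ℝ => s - t / 2) 1 t := (hasDerivAt_id t).sub_const _
  have e0 : t - t / 2 = t / 2 := by ring
  have h3 : HasDerivAt (fun s => I (C.P (s - t / 2) (C.P (t / 2) f) * g))
      (I (C.P (t / 2) (C.lap (C.P (t / 2) f)) * g) * 1) t := by
    have h1' : HasDerivAt (fun s => I (C.P s (C.P (t / 2) f) * g))
        (I (C.P (t / 2) (C.lap (C.P (t / 2) f)) * g)) (t - t / 2) := by
      rw [e0]; exact h1
    exact h1'.comp t h2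
  rw [mul_one, ← hC.P_lap_add h0.le h0 hf, add_halves] at h3
  refine h3.congr_of_eventuallyEq ?_
  filter_upwards [lt_mem_nhds (show t / 2 < t by linarith)] with s hs
  rw [hC.P_P (by linarith) h0.le hf, sub_add_cancel]

end abstract

/-! ### the drift -/

variable {M : Type u} [MetricSpace M] [MeasurableSpace M] [BorelSpace M] [SecondCountableTopology M]
  {m : Measure M} {n : ℕ} {K θ : ℝ}

/-- (LC) for `w_y` in global form -/
theorem lc_glob (h : NSp m n K θ) {δ : ℝ} (hδ : Okd M K δ) (y : M) {φ : M →ₘ[m] ℝ}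
    (hφ : φ ∈ (sob m).W) (hφ1 : MemLp φ 1 m) (h0 : 0 ≤ φ) :
    -I ((sob m).Γ (cl m (ww δ y)) φ)
      ≤ n * I φ - 2 * K / 3 * (I (cl m (ww δ y) * φ) + δ * I φ) := by
  have hC : IsDir (sob m) := h.isDir
  have hms := measurableSet_gg δ y
  have hwA := ww_A h.fin hδ.1.le y
  set w : M →ₘ[m] ℝ := cl m (ww δ y) with hw
  have hwae : ∀ᵐ x ∂m, w x = ww δ y x := ww_ae hδ.1.le y
  have hwφ : MemLp (w * φ) 1 m := mem_mul_top hwA.2 hφ1
  refine (lc_int h hδ.1 y hφ h0).trans ?_
  have i1 : Integrable (fun x => ((n : ℝ) - 2 * K / 3 * δ) * φ x - 2 * K / 3 * (w * φ) x) m :=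
    ((int_of_mem hφ1).const_mul _).sub ((int_of_mem hwφ).const_mul _)
  have e1 : ∫ x, (((n : ℝ) - 2 * K / 3 * δ) * φ x - 2 * K / 3 * (w * φ) x) ∂m
      = n * I φ - 2 * K / 3 * (I (w * φ) + δ * I φ) := by
    rw [integral_sub ((int_of_mem hφ1).const_mul _) ((int_of_mem hwφ).const_mul _),
      integral_const_mul, integral_const_mul]
    unfold I
    ring
  rw [← e1, ← integral_indicator hms]
  refine integral_mono_ae ((integrable_indicator_iff hms).2
    (lc_integrable h.fin _ _ δ y (hC.memLp _ hφ))) i1 ?_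
  filter_upwards [hwae, mul_ae w φ, nonneg_iff_ae.1 h0] with x a1 a2 a3
  rw [a2, a1]
  by_cases hx : gg y x < δ
  · rw [indicator_of_mem (by exact hx), ww_of_lt hx]
    apply le_of_eq
    ring
  · rw [indicator_of_notMem (by exact hx), ww_of_ge (not_lt.1 hx)]
    have h1 : 0 ≤ (n : ℝ) - 2 * K / 3 * δ := by
      rcases hδ.2 with h2 | h2
      · have := mul_nonpos_of_nonpos_of_nonneg h2 hδ.1.le
        have : (0 : ℝ) ≤ n := n.cast_nonneg
        linarith
      · exact absurd (h2 x y) hx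
    have := mul_nonneg h1 a3
    linarith

theorem drift_gron (h : NSp m n K θ)
    (hmass : ∀ t : ℝ, 0 ≤ t → ∀ f : M →ₘ[m] ℝ, MemLp f 2 m → MemLp f 1 m → I (Q m t f) = I f)
    {δ : ℝ} (hδ : Okd M K δ) (y : M) {χ : M →ₘ[m] ℝ} (hχ2 : MemLp χ 2 m) (hχ1 : MemLp χ 1 m)
    (h0 : 0 ≤ χ) {T : ℝ} (hT : 0 ≤ T) :
    Real.exp (K * T / 3) * (I (Q m T χ * cl m (ww δ y)) + δ * I χ)
      ≤ (I (χ * cl m (ww δ y)) + δ * I χ)
        + n / 2 * I χ * ∫ s in (0 : ℝ)..T, Real.exp (K * s / 3) := by
  have hC : IsDir (sob m) := h.isDir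
  have hwA := ww_A h.fin hδ.1.le y
  set w : M →ₘ[m] ℝ := cl m (ww δ y) with hw
  have hw2 := hC.memLp _ hwA.1
  set V : ℝ → ℝ := fun s => Real.exp (K * s / 3) * (I (Q m s χ * w) + δ * I χ)
    - n / 2 * I χ * ∫ r in (0 : ℝ)..s, Real.exp (K * r / 3) with hV
  have hec : Continuous fun r : ℝ => Real.exp (K * r / 3) := by fun_prop
  have hQc : Continuous fun s : ℝ => I (Q m s χ * w) := by
    have h1 : Continuous fun s : ℝ => I ((sob m).P s χ * w) := hC.P_cont_I hχ2 hw2
    exact h1.comp (continuous_id.div_const 2)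
  have hVd : ∀ s : ℝ, 0 < s → HasDerivAt V
      (Real.exp (K * s / 3) * (K / 3) * (I (Q m s χ * w) + δ * I χ)
        + Real.exp (K * s / 3) * (I ((sob m).lap (Q m s χ) * w) * (1 / 2))
        - n / 2 * I χ * Real.exp (K * s / 3)) s := by
    intro s hs
    have h1 : HasDerivAt (fun s : ℝ => Real.exp (K * s / 3)) (Real.exp (K * s / 3) * (K / 3)) s := by
      have h2 : HasDerivAt (fun s : ℝ => K * s / 3) (K / 3) s := by
        simpa using ((hasDerivAt_id s).const_mul K).div_const 3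
      exact h2.exp
    have h2 : HasDerivAt (fun s : ℝ => I (Q m s χ * w))
        (I ((sob m).lap (Q m s χ) * w) * (1 / 2)) s := by
      have h3 := P_hasDeriv_I2 hC (t := s / 2) (by positivity) hχ2 hw2
      have h4 : HasDerivAt (fun s : ℝ => s / 2) (1 / 2) s := (hasDerivAt_id s).div_const 2
      exact h3.comp s h4
    have h5 : HasDerivAt (fun s : ℝ => ∫ r in (0 : ℝ)..s, Real.exp (K * r / 3))
        (Real.exp (K * s / 3)) s := (hec.integral_hasStrictDerivAt 0 s).hasDerivAt
    exact (h1.mul (h2.add_const _)).sub (h5.const_mul _)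
  have hVc : ContinuousOn V (Ici 0) := by
    apply Continuous.continuousOn
    have h1 : Continuous fun s : ℝ => ∫ r in (0 : ℝ)..s, Real.exp (K * r / 3) :=
      continuous_iff_continuousAt.2 fun s =>
        (hec.integral_hasStrictDerivAt 0 s).hasDerivAt.continuousAt
    exact (hec.mul (hQc.add continuous_const)).sub (continuous_const.mul h1)
  have hanti : AntitoneOn V (Ici 0) := by
    refine antitoneOn_of_deriv_nonpos (convex_Ici 0) hVc ?_ ?_
    · intro s hs
      rw [interior_Ici] at hs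
      exact (hVd s hs).differentiableAt.differentiableWithinAt
    · intro s hs
      rw [interior_Ici] at hs
      have hs' : 0 < s := hs
      have hs2 : 0 < s / 2 := by positivity
      rw [(hVd s hs).deriv]
      have hlap : (sob m).IsLap (Q m s χ) ((sob m).lap (Q m s χ)) := hC.P_isLap hs2 hχ2
      have hφ1 : MemLp (Q m s χ) 1 m := (hC.P_L1 hs2.le hχ2 hχ1).1
      have hφ0 : 0 ≤ Q m s χ := hC.P_nonneg hs2.le hχ2 h0
      have h1 := lc_glob h hδ y hlap.1 hφ1 hφ0
      rw [← hw, hmass s hs'.le χ hχ2 hχ1, mul_comm w] at h1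
      have h2 : I ((sob m).lap (Q m s χ) * w) = -I ((sob m).Γ w (Q m s χ)) := by
        have h3 : I ((sob m).Γ (Q m s χ) w) = -I ((sob m).lap (Q m s χ) * w) := hlap.2.2 w hwA.1
        rw [hC.symm w hwA.1 _ hlap.1, h3, neg_neg]
      rw [h2]
      have h4 : K / 3 * (I (Q m s χ * w) + δ * I χ) + (-I ((sob m).Γ w (Q m s χ))) * (1 / 2)
          - n / 2 * I χ ≤ 0 := by linarith
      have h5 := mul_nonpos_of_nonneg_of_nonpos (Real.exp_pos (K * s / 3)).le h4
      calc _ = Real.exp (K * s / 3) * (K / 3 * (I (Q m s χ * w) + δ * I χ)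
            + (-I ((sob m).Γ w (Q m s χ))) * (1 / 2) - n / 2 * I χ) := by ring
        _ ≤ 0 := h5
  have h1 := hanti (mem_Ici.2 le_rfl) (mem_Ici.2 hT) hT
  simp only [hV] at h1
  have h2 : Q m 0 χ = χ := by
    unfold Q
    rw [zero_div]
    exact hC.P_zero_time hχ2
  rw [h2, intervalIntegral.integral_same, mul_zero, mul_zero, zero_div, Real.exp_zero, one_mul,
    sub_zero] at h1
  linarith

/-- **H3b**, with the second order term `A t²`. -/
theorem drift_ae (h : NSp m n K θ)
    (hmass : ∀ t : ℝ, 0 ≤ t → ∀ f : M →ₘ[m] ℝ, MemLp f 2 m → MemLp f 1 m → I (Q m t f) = I f)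
    {δ : ℝ} (hδ : Okd M K δ) {T : ℝ} (hT : 0 ≤ T) (hT1 : T ≤ 1) (y : M) :
    ∀ᵐ x ∂m, Q m T (cl m (ww δ y)) x
      ≤ ww δ y x + T / 2 * (n - 2 * K / 3 * cc δ x y) + dA n K δ * T ^ 2 := by
  have hC : IsDir (sob m) := h.isDir
  haveI : SigmaFinite m := sigmaFinite_of_ball h.fin
  have hwA := ww_A h.fin hδ.1.le y
  have hwae : ∀ᵐ x ∂m, cl m (ww δ y) x = ww δ y x := ww_ae hδ.1.le y
  set w : M →ₘ[m] ℝ := cl m (ww δ y) with hw
  have hw2 := hC.memLp _ hwA.1
  have hT2 : 0 ≤ T / 2 := by linarith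
  have hQ2 : MemLp (Q m T w) 2 m := hC.P_mem2 _ hw2
  set a : ℝ := T / 2 * (n - 2 * K / 3 * δ) + dA n K δ * T ^ 2 with ha
  set b : ℝ := 1 - K * T / 3 with hb
  have key : 0 ≤ᵐ[m] fun x => a + b * w x - Q m T w x := by
    refine ae_nonneg_of_forall_setIntegral_nonneg_of_sigmaFinite ?_ ?_
    · intro s hs hsf
      haveI : IsFiniteMeasure (m.restrict s) := ⟨by rwa [Measure.restrict_apply_univ]⟩
      have i1 : IntegrableOn (w : M → ℝ) s m := (hw2.restrict s).integrable (by norm_num)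
      have i2 : IntegrableOn (Q m T w : M → ℝ) s m := (hQ2.restrict s).integrable (by norm_num)
      exact ((integrableOn_const hsf.ne).add (i1.const_mul b)).sub i2
    · intro s hs hsf
      haveI : IsFiniteMeasure (m.restrict s) := ⟨by rwa [Measure.restrict_apply_univ]⟩
      have i1 : IntegrableOn (w : M → ℝ) s m := (hw2.restrict s).integrable (by norm_num)
      have i2 : IntegrableOn (Q m T w : M → ℝ) s m := (hQ2.restrict s).integrable (by norm_num)
      have hmeas : AEStronglyMeasurable (s.indicator fun _ => (1 : ℝ)) m :=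
        (measurable_const.indicator hs).aestronglyMeasurable
      set χ : M →ₘ[m] ℝ := cl m (s.indicator fun _ => (1 : ℝ)) with hχ
      have hχae : ∀ᵐ x ∂m, χ x = s.indicator (fun _ => (1 : ℝ)) x := H183.cl_ae hmeas
      have hχp : ∀ p : ℝ≥0∞, MemLp χ p m := by
        intro p
        have h1 : MemLp (s.indicator fun _ => (1 : ℝ)) p m :=
          memLp_indicator_const p hs 1 (Or.inr hsf.ne)
        exact (memLp_congr_ae hχae).2 h1
      have hχ0 : 0 ≤ χ := by
        rw [nonneg_iff_ae]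
        filter_upwards [hχae] with x hx
        rw [hx]
        exact indicator_nonneg (fun _ _ => zero_le_one) x
      have hIχ : I χ = m.real s := by
        unfold I
        rw [integral_congr_ae hχae, integral_indicator hs, setIntegral_const, smul_eq_mul, mul_one]
      have hIf : ∀ f : M →ₘ[m] ℝ, I (χ * f) = ∫ x in s, f x ∂m := by
        intro f
        unfold I
        rw [← integral_indicator hs]
        refine integral_congr_ae ?_
        filter_upwards [hχae, mul_ae χ f] with x h1 h2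
        rw [h2, h1]
        by_cases hx : x ∈ s
        · simp [indicator_of_mem hx]
        · simp [indicator_of_notMem hx]
      have h1 := drift_gron h hmass hδ y (hχp 2) (hχp 1) hχ0 hT
      rw [← hw] at h1
      have h2 : I (Q m T χ * w) = I (χ * Q m T w) := hC.P_symm _ (hχp 2) hw2
      have hc0 : 0 ≤ I χ := I_nonneg hχ0
      have hwb : ∀ᵐ x ∂m, -δ ≤ w x ∧ w x ≤ 0 := by
        filter_upwards [hwae] with x hx
        rw [hx]
        exact ⟨ww_ge hδ.1.le y x, ww_nonpos δ y x⟩
      have hχw : MemLp (χ * w) 1 m := mem_mul_22 (hχp 2) hw2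
      have hU1 : 0 ≤ I (χ * w) + δ * I χ := by
        rw [← I_smul, ← I_add hχw (mem_smul _ (hχp 1))]
        apply I_nonneg
        rw [nonneg_iff_ae]
        filter_upwards [add_ae (χ * w) (δ • χ), mul_ae χ w, smul_ae χ δ, hwb, nonneg_iff_ae.1 hχ0]
          with x a1 a2 a3 a4 a5
        rw [a1, a2, a3]
        have := mul_nonneg a5 (show 0 ≤ w x + δ by linarith [a4.1])
        linarith
      have hU2 : I (χ * w) + δ * I χ ≤ δ * I χ := by
        have : 0 ≤ I (-(χ * w)) := by
          apply I_nonneg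
          rw [nonneg_iff_ae]
          filter_upwards [neg_ae (χ * w), mul_ae χ w, hwb, nonneg_iff_ae.1 hχ0] with x a1 a2 a3 a4
          rw [a1, a2]
          have := mul_nonneg a4 (show 0 ≤ -w x by linarith [a3.2])
          linarith
        rw [I_neg] at this
        linarith
      rw [h2] at h1
      have h3 := gron_expand hT hT1 hU1 hc0 hU2 h1
      have h4 : ∫ x in s, (a + b * w x - Q m T w x) ∂m
          = a * m.real s + b * (∫ x in s, w x ∂m) - ∫ x in s, Q m T w x ∂m := by
        have j0 : IntegrableOn (fun _ : M => a) s m := integrableOn_const hsf.ne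
        have j1 := integral_sub (μ := m.restrict s) (f := fun x => a + b * w x)
          (g := fun x => Q m T w x) (j0.add (i1.const_mul b)) i2
        have j2 := integral_add (μ := m.restrict s) (f := fun _ => a) (g := fun x => b * w x)
          j0 (i1.const_mul b)
        rw [j1, j2, integral_const_mul, setIntegral_const, smul_eq_mul]
        ring
      rw [h4, ← hIχ, ← hIf, ← hIf, ha, hb]
      linarith
  filter_upwards [key, hwae] with x h1 h2
  have h3 : 0 ≤ a + b * w x - Q m T w x := h1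
  have h4 : cc δ x y = ww δ y x + δ := by unfold ww; ring
  rw [h4]
  rw [h2, ha, hb] at h3
  linarith

theorem blk_H3b_of (hm : Blk_H1.{u}) : Blk_H3b.{u} := by
  intro M _ _ _ _ _ m n K θ h δ hδ
  refine ⟨dA n K δ, dA_nonneg n K hδ.1.le, fun t ht ht1 y => ?_⟩
  filter_upwards [drift_ae h (hm M m n K θ h) hδ ht ht1 y] with x hx
  refine hx.trans ?_
  have h1 : t ^ 2 ≤ t * √t := by
    rw [sq]
    refine mul_le_mul_of_nonneg_left ?_ ht
    refine Real.le_sqrt_of_sq_le ?_
    rw [sq]
    exact mul_le_of_le_one_left ht ht1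
  have := mul_le_mul_of_nonneg_left h1 (dA_nonneg n K hδ.1.le)
  linarith

end Vale.Agent.P233.H982
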