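import Vale.Agent.P233.H66.Time2
import Vale.Agent.P233.Gig.Defs

/-!
# P233, time calculus: chain rules (helper982)

Composition of differentiable curves of classes (`DL2`, `DL1`, `Calc.DW` of `H66/Time2`) with
functions; exponential and logarithm.
-/

set_option linter.all false

open MeasureTheory Filter Topology Set
open scoped ENNReal NNReal InnerProductSpace

namespace Vale.Agent.P233

variable {M : Type*} [MeasurableSpace M] {m : Measure M} {C : Calc m}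

section nem

/-- the quotient `(φ p - φ q - φ'(q) (p - q)) / (p - q)` -/
noncomputable def rq (φ φ' : ℝ → ℝ) (hφ : Continuous φ) (hφ' : Continuous φ') (p q : M →ₘ[m] ℝ) :
    M →ₘ[m] ℝ :=
  AEEqFun.mk (fun x => (φ (p x) - φ (q x) - φ' (q x) * (p x - q x)) / (p x - q x))
    ((((hφ.comp_aestronglyMeasurable p.aestronglyMeasurable).sub
      (hφ.comp_aestronglyMeasurable q.aestronglyMeasurable)).sub
      ((hφ'.comp_aestronglyMeasurable q.aestronglyMeasurable).mul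
        (p.aestronglyMeasurable.sub q.aestronglyMeasurable))).aemeasurable.div
      (p.aestronglyMeasurable.sub q.aestronglyMeasurable).aemeasurable).aestronglyMeasurable

variable {φ φ' : ℝ → ℝ} {hφ : Continuous φ} {hφ' : Continuous φ'}

theorem rq_ae (p q : M →ₘ[m] ℝ) : ∀ᵐ x ∂m, rq φ φ' hφ hφ' p q x
    = (φ (p x) - φ (q x) - φ' (q x) * (p x - q x)) / (p x - q x) :=
  AEEqFun.coeFn_mk _ _

theorem rq_mul (p q : M →ₘ[m] ℝ) (c : ℝ) :
    c • (AEEqFun.comp φ hφ p - AEEqFun.comp φ hφ q)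
      = rq φ φ' hφ hφ' p q * (c • (p - q)) + AEEqFun.comp φ' hφ' q * (c • (p - q)) := by
  rw [eq_iff_ae]
  filter_upwards [rq_ae (φ := φ) (φ' := φ') (hφ := hφ) (hφ' := hφ') p q,
    add_ae (rq φ φ' hφ hφ' p q * (c • (p - q))) (AEEqFun.comp φ' hφ' q * (c • (p - q))),
    mul_ae (rq φ φ' hφ hφ' p q) (c • (p - q)), mul_ae (AEEqFun.comp φ' hφ' q) (c • (p - q)),
    smul_ae (p - q) c, sub_ae p q, smul_ae (AEEqFun.comp φ hφ p - AEEqFun.comp φ hφ q) c,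
    sub_ae (AEEqFun.comp φ hφ p) (AEEqFun.comp φ hφ q), AEEqFun.coeFn_comp φ hφ p,
    AEEqFun.coeFn_comp φ hφ q, AEEqFun.coeFn_comp φ' hφ' q] with x h1 h2 h3 h4 h5 h6 h7 h8 h9 h10 h11
  simp only [Function.comp_apply] at h9 h10 h11
  rw [h7, h8, h9, h10, h2, h3, h4, h1, h5, h6, h11]
  by_cases hpq : p x = q x
  · simp [hpq]
  · have : p x - q x ≠ 0 := sub_ne_zero.2 hpq
    field_simp
    ring

variable {a b : ℝ}

theorem nem_lip_const (hφ' : Continuous φ')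
    (hd : ∀ y ∈ Icc a b, HasDerivWithinAt φ (φ' y) (Icc a b) y) :
    ∃ K : ℝ, 0 ≤ K ∧ (∀ y ∈ Icc a b, |φ' y| ≤ K) ∧
      ∀ x ∈ Icc a b, ∀ y ∈ Icc a b, |φ x - φ y| ≤ K * |x - y| := by
  obtain ⟨K, hK⟩ := (isCompact_Icc (a := a) (b := b)).exists_bound_of_continuousOn
    hφ'.continuousOn
  refine ⟨max K 0, le_max_right _ _, fun y hy => ?_, fun x hx y hy => ?_⟩
  · have := hK y hy
    rw [Real.norm_eq_abs] at this
    exact this.trans (le_max_left _ _)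
  · have := (convex_Icc a b).norm_image_sub_le_of_norm_hasDerivWithin_le hd
      (fun z hz => (hK z hz).trans (le_max_left K 0)) hy hx
    simpa [Real.norm_eq_abs] using this

theorem nem_comp_bdd {p : M →ₘ[m] ℝ} (hab : ∀ᵐ x ∂m, a ≤ p x ∧ p x ≤ b) {K : ℝ}
    (hK : ∀ y ∈ Icc a b, |φ y| ≤ K) (hφ : Continuous φ) :
    ∀ᵐ x ∂m, |AEEqFun.comp φ hφ p x| ≤ K := by
  filter_upwards [AEEqFun.coeFn_comp φ hφ p, hab] with x h1 h2
  simp only [Function.comp_apply] at h1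
  rw [h1]
  exact hK _ h2

theorem nem_comp_top {p : M →ₘ[m] ℝ} (hab : ∀ᵐ x ∂m, a ≤ p x ∧ p x ≤ b) (hφ : Continuous φ) :
    MemLp (AEEqFun.comp φ hφ p) ∞ m := by
  obtain ⟨K, hK⟩ := (isCompact_Icc (a := a) (b := b)).exists_bound_of_continuousOn
    hφ.continuousOn
  exact mem_top_iff.2 ⟨K, nem_comp_bdd hab (fun y hy => by simpa using hK y hy) hφ⟩

/-- the composition with a Lipschitz function: differences -/
theorem nem_sub_le {p q : M →ₘ[m] ℝ} (hp : ∀ᵐ x ∂m, a ≤ p x ∧ p x ≤ b)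
    (hq : ∀ᵐ x ∂m, a ≤ q x ∧ q x ≤ b) {K : ℝ}
    (hK : ∀ x ∈ Icc a b, ∀ y ∈ Icc a b, |φ x - φ y| ≤ K * |x - y|) (hφ : Continuous φ) :
    ∀ᵐ x ∂m, |(AEEqFun.comp φ hφ p - AEEqFun.comp φ hφ q) x| ≤ K * |(p - q) x| := by
  filter_upwards [sub_ae (AEEqFun.comp φ hφ p) (AEEqFun.comp φ hφ q), sub_ae p q,
    AEEqFun.coeFn_comp φ hφ p, AEEqFun.coeFn_comp φ hφ q, hp, hq] with x h1 h2 h3 h4 h5 h6
  simp only [Function.comp_apply] at h3 h4
  rw [h1, h2, h3, h4]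
  exact hK _ h5 _ h6

theorem nem_sub_mem {p q : M →ₘ[m] ℝ} (hp : ∀ᵐ x ∂m, a ≤ p x ∧ p x ≤ b)
    (hq : ∀ᵐ x ∂m, a ≤ q x ∧ q x ≤ b) {K : ℝ} (hK0 : 0 ≤ K)
    (hK : ∀ x ∈ Icc a b, ∀ y ∈ Icc a b, |φ x - φ y| ≤ K * |x - y|) (hφ : Continuous φ) {e : ℝ≥0∞}
    (hpq : MemLp (p - q : M →ₘ[m] ℝ) e m) :
    MemLp (AEEqFun.comp φ hφ p - AEEqFun.comp φ hφ q : M →ₘ[m] ℝ) e m := by
  refine mem_of_le (mem_smul K hpq) ?_
  filter_upwards [nem_sub_le hp hq hK hφ, smul_ae (p - q) K] with x h1 h2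
  rw [h2, abs_mul, abs_of_nonneg hK0]
  exact h1

theorem rq_bd {p q : M →ₘ[m] ℝ} (hp : ∀ᵐ x ∂m, a ≤ p x ∧ p x ≤ b)
    (hq : ∀ᵐ x ∂m, a ≤ q x ∧ q x ≤ b) {K : ℝ} (hK0 : 0 ≤ K) (hK1 : ∀ y ∈ Icc a b, |φ' y| ≤ K)
    (hK2 : ∀ x ∈ Icc a b, ∀ y ∈ Icc a b, |φ x - φ y| ≤ K * |x - y|) :
    ∀ᵐ x ∂m, |rq φ φ' hφ hφ' p q x| ≤ 2 * K := by
  filter_upwards [rq_ae (φ := φ) (φ' := φ') (hφ := hφ) (hφ' := hφ') p q, hp, hq] with x h1 h2 h3
  rw [h1, abs_div]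
  refine div_le_of_le_mul₀ (abs_nonneg _) (by positivity) ?_
  refine (abs_sub _ _).trans ?_
  rw [abs_mul]
  have e1 := hK2 _ h2 _ h3
  have e2 := mul_le_mul_of_nonneg_right (hK1 _ h3) (abs_nonneg (p x - q x))
  linarith

/-- Lipschitz derivative -/
theorem rq_lip {p q : M →ₘ[m] ℝ} (hp : ∀ᵐ x ∂m, a ≤ p x ∧ p x ≤ b)
    (hq : ∀ᵐ x ∂m, a ≤ q x ∧ q x ≤ b) {L : ℝ} (hL0 : 0 ≤ L)
    (hd : ∀ y ∈ Icc a b, HasDerivWithinAt φ (φ' y) (Icc a b) y)
    (hL : ∀ x ∈ Icc a b, ∀ y ∈ Icc a b, |φ' x - φ' y| ≤ L * |x - y|) :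
    ∀ᵐ x ∂m, |rq φ φ' hφ hφ' p q x| ≤ L * |p x - q x| := by
  filter_upwards [rq_ae (φ := φ) (φ' := φ') (hφ := hφ) (hφ' := hφ') p q, hp, hq] with x h1 h2 h3
  rw [h1, abs_div]
  refine div_le_of_le_mul₀ (abs_nonneg _) (by positivity) ?_
  have hsub : uIcc (q x) (p x) ⊆ Icc a b := by
    intro z hz
    rw [uIcc, mem_Icc] at hz
    exact ⟨(le_inf h3.1 h2.1).trans hz.1, hz.2.trans (sup_le h3.2 h2.2)⟩
  have key := (convex_uIcc (q x) (p x)).norm_image_sub_le_of_norm_hasDerivWithin_le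
    (f := fun z => φ z - φ' (q x) * z) (f' := fun z => φ' z - φ' (q x)) (C := L * |p x - q x|)
    (x := q x) (y := p x) (fun z hz => ?_) (fun z hz => ?_) left_mem_uIcc right_mem_uIcc
  · simp only [Real.norm_eq_abs] at key
    have e : φ (p x) - φ' (q x) * p x - (φ (q x) - φ' (q x) * q x)
        = φ (p x) - φ (q x) - φ' (q x) * (p x - q x) := by ring
    rwa [e] at key
  · have h4 := ((hd z (hsub hz)).mono hsub).sub (((hasDerivWithinAt_id z (uIcc (q x) (p x))).const_mul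
      (φ' (q x))))
    rw [mul_one] at h4
    exact h4
  · rw [Real.norm_eq_abs]
    refine (hL z (hsub hz) (q x) h3).trans (mul_le_mul_of_nonneg_left ?_ hL0)
    have := abs_sub_left_of_mem_uIcc hz
    exact this

/-- the quotient tends to `0` -/
theorem rq_tb {p : ℕ → M →ₘ[m] ℝ} {q : M →ₘ[m] ℝ} (hp : ∀ n, ∀ᵐ x ∂m, a ≤ p n x ∧ p n x ≤ b)
    (hq : ∀ᵐ x ∂m, a ≤ q x ∧ q x ≤ b) 
    (hd : ∀ y ∈ Icc a b, HasDerivWithinAt φ (φ' y) (Icc a b) y)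
    (hlim : ∀ᵐ x ∂m, Tendsto (fun n => p n x) atTop (𝓝 (q x))) :
    Tb (fun n => rq φ φ' hφ hφ' (p n) q) 0 := by
  obtain ⟨K, hK0, hK1, hK2⟩ := nem_lip_const hφ' hd
  refine ⟨⟨2 * K, fun n => rq_bd (hp n) hq hK0 hK1 hK2⟩, ?_⟩
  filter_upwards [ae_all_iff.2 fun n => rq_ae (φ := φ) (φ' := φ') (hφ := hφ) (hφ' := hφ')
    (p n) q, ae_all_iff.2 hp, hq, hlim, zero_ae (M := M) (m := m)] with x h1 h2 h3 h4 h5
  rw [h5]
  simp only [h1]
  have h6 := (hasDerivWithinAt_iff_isLittleO.1 (hd _ h3)).tendsto_div_nhds_zero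
  have h7 : Tendsto (fun n => p n x) atTop (𝓝[Icc a b] (q x)) :=
    tendsto_nhdsWithin_iff.2 ⟨h4, Eventually.of_forall h2⟩
  have h8 := h6.comp h7
  refine h8.congr fun n => ?_
  simp only [Function.comp_apply, smul_eq_mul]
  rw [mul_comm (p n x - q x)]

/-- THE CHAIN RULE in `L²` for sequences of difference quotients -/
theorem nem_T2 {p : ℕ → M →ₘ[m] ℝ} {q f' : M →ₘ[m] ℝ} {c : ℕ → ℝ}
    (hp : ∀ n, ∀ᵐ x ∂m, a ≤ p n x ∧ p n x ≤ b)
    (hq : ∀ᵐ x ∂m, a ≤ q x ∧ q x ≤ b) (hφ : Continuous φ) (hφ' : Continuous φ')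
    (hd : ∀ y ∈ Icc a b, HasDerivWithinAt φ (φ' y) (Icc a b) y)
    (hlim : ∀ᵐ x ∂m, Tendsto (fun n => p n x) atTop (𝓝 (q x)))
    (hX : T2 (fun n => c n • (p n - q)) f') :
    T2 (fun n => c n • (AEEqFun.comp φ hφ (p n) - AEEqFun.comp φ hφ q))
      (AEEqFun.comp φ' hφ' q * f') := by
  have h1 := (rq_tb (hφ := hφ) (hφ' := hφ') hp hq hd hlim).mul hX
  have h2 := (Tb.const (nem_comp_top hq hφ')).mul hX
  have h3 := h1.add h2
  rw [zero_mul, zero_add] at h3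
  have e : (fun n => c n • (AEEqFun.comp φ hφ (p n) - AEEqFun.comp φ hφ q))
      = fun n => rq φ φ' hφ hφ' (p n) q * (c n • (p n - q))
        + AEEqFun.comp φ' hφ' q * (c n • (p n - q)) := by
    funext n; exact rq_mul _ _ _
  rw [e]
  exact h3

end nem

section curves

variable {f g : ℝ → M →ₘ[m] ℝ} {f' g' : M →ₘ[m] ℝ} {S : Set ℝ} {t : ℝ} {a b : ℝ}
  {φ φ' φ'' : ℝ → ℝ}

/-- a subsequence along which the curve converges almost everywhere -/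
theorem DL2.exists_ae (h : DL2 f f' S t) {r : ℕ → ℝ} (hr : Sq S t r) :
    ∃ ns : ℕ → ℕ, Tendsto ns atTop atTop ∧
      ∀ᵐ x ∂m, Tendsto (fun n => f (r (ns n)) x) atTop (𝓝 (f t x)) := by
  have h1 := h.seq_sub hr
  obtain ⟨ns, hns, h2⟩ := exists_subseq_of_I_sq h1.mem h1.mem' h1.lim
  refine ⟨ns, hns.tendsto_atTop, ?_⟩
  filter_upwards [h2, zero_ae (M := M) (m := m), ae_all_iff.2 fun n => sub_ae (f (r (ns n))) (f t)]
    with x h3 h4 h5
  rw [h4] at h3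
  simp only [h5] at h3
  have := h3.add_const (f t x)
  simpa using this

/-- THE CHAIN RULE in `L²`: `φ` is `C¹` on the range `[a,b]`. -/
theorem DL2.nem (h : DL2 f f' S t) (hab : ∀ r ∈ S, ∀ᵐ x ∂m, a ≤ f r x ∧ f r x ≤ b)
    (habt : ∀ᵐ x ∂m, a ≤ f t x ∧ f t x ≤ b) (hφ : Continuous φ) (hφ' : Continuous φ')
    (hd : ∀ y ∈ Icc a b, HasDerivWithinAt φ (φ' y) (Icc a b) y) :
    DL2 (fun r => AEEqFun.comp φ hφ (f r)) (AEEqFun.comp φ' hφ' (f t) * f') S t := by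
  obtain ⟨K, hK0, hK1, hK2⟩ := nem_lip_const hφ' hd
  refine DL2.of_subseq (fun r hr => nem_sub_mem (hab r hr) habt hK0 hK2 hφ (h.mem r hr))
    (mem_mul_top (nem_comp_top habt hφ') h.mem') fun r hr => ?_
  obtain ⟨ns, hns, hlim⟩ := h.exists_ae hr
  exact ⟨ns, hns, nem_T2 (fun n => hab _ (hr.mem _)) habt hφ hφ' hd hlim ((h.seq hr).comp hns)⟩

/-- THE CHAIN RULE with values in `L¹`: `φ'` is Lipschitz on the range and `φ' (f t) ∈ L²`. -/
theorem DL2.nem1 (h : DL2 f f' S t) (hab : ∀ r ∈ S, ∀ᵐ x ∂m, a ≤ f r x ∧ f r x ≤ b)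
    (habt : ∀ᵐ x ∂m, a ≤ f t x ∧ f t x ≤ b) (hφ : Continuous φ) (hφ' : Continuous φ')
    (hd : ∀ y ∈ Icc a b, HasDerivWithinAt φ (φ' y) (Icc a b) y)
    {L : ℝ} (hL : ∀ x ∈ Icc a b, ∀ y ∈ Icc a b, |φ' x - φ' y| ≤ L * |x - y|)
    (h2 : MemLp (AEEqFun.comp φ' hφ' (f t)) 2 m) :
    DL1 (fun r => AEEqFun.comp φ hφ (f r)) (AEEqFun.comp φ' hφ' (f t) * f') S t := by
  wlog hL0 : 0 ≤ L generalizing L with H
  · refine H (L := |L|) (fun x hx y hy => (hL x hx y hy).trans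
      (mul_le_mul_of_nonneg_right (le_abs_self _) (abs_nonneg _))) (abs_nonneg _)
  have key : ∀ r ∈ S, MemLp (rq φ φ' hφ hφ' (f r) (f t)) 2 m := by
    intro r hr
    refine mem_of_le (mem_smul L (h.mem r hr)) ?_
    filter_upwards [rq_lip (hφ := hφ) (hφ' := hφ') (hab r hr) habt hL0 hd hL,
      smul_ae (f r - f t) L, sub_ae (f r) (f t)] with x e1 e2 e3
    rw [e2, e3, abs_mul, abs_of_nonneg hL0]; exact e1
  refine DL1.of_seq (fun r hr => ?_) (mem_mul_22 h2 h.mem') fun r hr => ?_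
  · have e := rq_mul (φ := φ) (φ' := φ') (hφ := hφ) (hφ' := hφ') (f r) (f t) 1
    rw [one_smul, one_smul] at e
    rw [e]
    exact mem_add (mem_mul_22 (key r hr) (h.mem r hr)) (mem_mul_22 h2 (h.mem r hr))
  · have h3 : T2 (fun n => rq φ φ' hφ hφ' (f (r n)) (f t)) 0 := by
      refine T2.zero_of_le (fun n => key _ (hr.mem n)) ((h.seq_sub hr).smul L |> fun k => by
        rw [smul_zero] at k; exact k) fun n => ?_
      filter_upwards [rq_lip (hφ := hφ) (hφ' := hφ') (hab _ (hr.mem n)) habt hL0 hd hL,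
        smul_ae (f (r n) - f t) L, sub_ae (f (r n)) (f t)] with x e1 e2 e3
      rw [e2, e3, abs_mul, abs_of_nonneg hL0]; exact e1
    have h4 := (h3.mul (h.seq hr)).add ((T2.const h2).mul (h.seq hr))
    rw [zero_mul, zero_add] at h4
    have e : (fun n => (r n - t)⁻¹ • (AEEqFun.comp φ hφ (f (r n)) - AEEqFun.comp φ hφ (f t)))
        = fun n => rq φ φ' hφ hφ' (f (r n)) (f t) * ((r n - t)⁻¹ • (f (r n) - f t))
          + AEEqFun.comp φ' hφ' (f t) * ((r n - t)⁻¹ • (f (r n) - f t)) := by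
      funext n; exact rq_mul _ _ _
    rw [e]
    exact h4

end curves

/-! ### the chain rule in the Sobolev space -/

namespace IsDir

variable (hC : IsDir C)
include hC

theorem Γ3_le {E Y1 Y2 Y3 a1 a2 a3 : M →ₘ[m] ℝ} (hE : E ∈ C.W) (h1 : Y1 ∈ C.W) (h2 : Y2 ∈ C.W)
    (h3 : Y3 ∈ C.W) (h : C.Γ E E = a1 * C.Γ Y1 E + a2 * C.Γ Y2 E + a3 * C.Γ Y3 E) :
    ∀ᵐ x ∂m, C.Γ E E x ≤ 3 * (a1 x ^ 2 * C.Γ Y1 Y1 x + a2 x ^ 2 * C.Γ Y2 Y2 x
      + a3 x ^ 2 * C.Γ Y3 Y3 x) := by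
  have key : ∀ {Y c : M →ₘ[m] ℝ}, Y ∈ C.W → ∀ᵐ x ∂m,
      c x * C.Γ Y E x ≤ 3 / 2 * (c x ^ 2 * C.Γ Y Y x) + 1 / 6 * C.Γ E E x := by
    intro Y c hY
    filter_upwards [hC.Γ_cs_ae hY hE, hC.Γ_nonneg_ae hY, hC.Γ_nonneg_ae hE] with x e1 e2 e3
    have e4 : (c x * C.Γ Y E x) ^ 2 ≤ (c x ^ 2 * C.Γ Y Y x) * C.Γ E E x := by
      rw [mul_pow, mul_assoc]
      exact mul_le_mul_of_nonneg_left e1 (sq_nonneg _)
    have e5 : 0 ≤ c x ^ 2 * C.Γ Y Y x := mul_nonneg (sq_nonneg _) e2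
    have e6 := abs_le_of_sq_le_sq' (a := c x * C.Γ Y E x)
      (b := 3 / 2 * (c x ^ 2 * C.Γ Y Y x) + 1 / 6 * C.Γ E E x) (by
        nlinarith [sq_nonneg (3 / 2 * (c x ^ 2 * C.Γ Y Y x) - 1 / 6 * C.Γ E E x)]) (by positivity)
    exact e6.2
  filter_upwards [key (c := a1) h1, key (c := a2) h2, key (c := a3) h3,
    eq_iff_ae.1 h, add_ae (a1 * C.Γ Y1 E + a2 * C.Γ Y2 E) (a3 * C.Γ Y3 E),
    add_ae (a1 * C.Γ Y1 E) (a2 * C.Γ Y2 E), mul_ae a1 (C.Γ Y1 E), mul_ae a2 (C.Γ Y2 E),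
    mul_ae a3 (C.Γ Y3 E)] with x e1 e2 e3 e4 e5 e6 e7 e8 e9
  rw [e5, e6, e7, e8, e9] at e4
  linarith

variable {a b : ℝ} {φ φ' φ'' : ℝ → ℝ}

/-- `comp φ' q * f'` is in the Sobolev space -/
theorem nem_mul (ha : a ≤ 0) (hb : 0 ≤ b) {q f' : M →ₘ[m] ℝ} (hq : q ∈ C.W)
    (habq : ∀ᵐ x ∂m, a ≤ q x ∧ q x ≤ b) (hΓ : MemLp (C.Γ q q) ∞ m) (hf' : f' ∈ C.W)
    (hφ' : Continuous φ') (hφ'' : Continuous φ'')
    (hd' : ∀ y ∈ Icc a b, HasDerivWithinAt φ' (φ'' y) (Icc a b) y) :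
    AEEqFun.comp φ' hφ' q * f' ∈ C.W ∧ ∀ g ∈ C.W, C.Γ (AEEqFun.comp φ' hφ' q * f') g
      = AEEqFun.comp φ' hφ' q * C.Γ f' g + f' * (AEEqFun.comp φ'' hφ'' q * C.Γ q g) := by
  have hφ1 : Continuous fun x => φ' x - φ' 0 := by fun_prop
  have h1 := hC.hc_chain hq ha hb habq hφ1 hφ''
    (fun y hy => by simpa using (hd' y hy).sub_const (φ' 0)) (sub_self _)
  set B := AEEqFun.comp (fun x => φ' x - φ' 0) hφ1 q with hB
  have hBA : B ∈ C.A := ⟨h1.1, nem_comp_top habq hφ1⟩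
  have hBΓ : MemLp (C.Γ B B) ∞ m := by
    rw [h1.2 _ h1.1, hC.symm _ hq _ h1.1, h1.2 _ hq]
    exact mem_mul_top (nem_comp_top habq hφ'') (mem_mul_top (nem_comp_top habq hφ'') hΓ)
  have e1 : AEEqFun.comp φ' hφ' q = φ' 0 • (1 : M →ₘ[m] ℝ) + B := by
    rw [eq_iff_ae]
    filter_upwards [AEEqFun.coeFn_comp φ' hφ' q, AEEqFun.coeFn_comp (fun x => φ' x - φ' 0) hφ1 q,
      add_ae (φ' 0 • (1 : M →ₘ[m] ℝ)) B, smul_ae (1 : M →ₘ[m] ℝ) (φ' 0), one_ae (M := M) (m := m)]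
      with x e1 e2 e3 e4 e5
    simp only [Function.comp_apply] at e1 e2
    rw [e3, e4, e5, e1, hB, e2]
    ring
  have e2 : AEEqFun.comp φ' hφ' q * f' = φ' 0 • f' + B * f' := by rw [e1]; algebra
  have h2 := hC.mul_mem_lip hBA hBΓ hf'
  refine ⟨by rw [e2]; exact hC.add_mem _ (hC.smul_mem _ _ hf') _ h2, fun g hg => ?_⟩
  rw [e2, hC.add_left _ (hC.smul_mem _ _ hf') _ h2 _ hg, hC.smul_left _ _ hf' _ hg,
    hC.Γ_mul_left_lip hBA hBΓ hf' hg, h1.2 g hg, e1]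
  algebra

/-- THE CHAIN RULE in `W` for sequences of difference quotients -/
theorem nem_TW (ha : a ≤ 0) (hb : 0 ≤ b) {p : ℕ → M →ₘ[m] ℝ} {q f' : M →ₘ[m] ℝ} {c : ℕ → ℝ}
    (hpW : ∀ n, p n ∈ C.W) (hqW : q ∈ C.W)
    (hp : ∀ n, ∀ᵐ x ∂m, a ≤ p n x ∧ p n x ≤ b)
    (hq : ∀ᵐ x ∂m, a ≤ q x ∧ q x ≤ b) (hΓ : MemLp (C.Γ q q) ∞ m)
    (hφ : Continuous φ) (hφ' : Continuous φ') (hφ'' : Continuous φ'')
    (hd : ∀ y ∈ Icc a b, HasDerivWithinAt φ (φ' y) (Icc a b) y)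
    (hd' : ∀ y ∈ Icc a b, HasDerivWithinAt φ' (φ'' y) (Icc a b) y) (h0 : φ 0 = 0)
    (hlim : ∀ᵐ x ∂m, Tendsto (fun n => p n x) atTop (𝓝 (q x)))
    (hX : C.TW (fun n => c n • (p n - q)) f') :
    C.TW (fun n => c n • (AEEqFun.comp φ hφ (p n) - AEEqFun.comp φ hφ q))
      (AEEqFun.comp φ' hφ' q * f') := by
  have hf' := hX.mem'
  have hm := hC.nem_mul ha hb hqW hq hΓ hf' hφ' hφ'' hd'
  have hpc := fun n => hC.hc_chain (hpW n) ha hb (hp n) hφ hφ' hd h0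
  have hqc := hC.hc_chain hqW ha hb hq hφ hφ' hd h0
  have hT := nem_T2 hp hq hφ hφ' hd hlim (hC.TW_T2 hX)
  have hT' := nem_T2 hp hq hφ' hφ'' hd' hlim (hC.TW_T2 hX)
  have hW : ∀ n, c n • (AEEqFun.comp φ hφ (p n) - AEEqFun.comp φ hφ q) ∈ C.W := fun n =>
    hC.smul_mem _ _ (hC.sub_mem (hpc n).1 hqc.1)
  refine ⟨hW, hm.1, ?_⟩
  obtain ⟨K, hK⟩ := (isCompact_Icc (a := a) (b := b)).exists_bound_of_continuousOn
    hφ'.continuousOn
  have hK' : ∀ y ∈ Icc a b, |φ' y| ≤ K := fun y hy => by simpa using hK y hy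
  obtain ⟨L, hL⟩ := mem_top_iff.1 hΓ
  -- the three error terms
  have l1 : Tendsto (fun n => I (C.Γ (c n • (p n - q) - f') (c n • (p n - q) - f'))) atTop (𝓝 0) :=
    hC.TW_E hX
  have l2 : Tendsto (fun n => I ((AEEqFun.comp φ' hφ' (p n) - AEEqFun.comp φ' hφ' q) ^ 2
      * C.Γ f' f')) atTop (𝓝 0) := by
    have := I_tendsto_of_bdd (u := fun n => (AEEqFun.comp φ' hφ' (p n) - AEEqFun.comp φ' hφ' q) ^ 2)
      (v := 0) (G := C.Γ f' f') (K := (2 * K) ^ 2) (fun n => ?_) ?_ (hC.mem1 _ hf')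
    · rwa [zero_mul, I_zero] at this
    · filter_upwards [sq_ae (AEEqFun.comp φ' hφ' (p n) - AEEqFun.comp φ' hφ' q),
        sub_ae (AEEqFun.comp φ' hφ' (p n)) (AEEqFun.comp φ' hφ' q),
        nem_comp_bdd (hp n) hK' hφ', nem_comp_bdd hq hK' hφ'] with x e1 e2 e3 e4
      rw [e1, e2, abs_of_nonneg (sq_nonneg _), ← sq_abs]
      refine pow_le_pow_left₀ (abs_nonneg _) ((abs_sub _ _).trans (by linarith)) 2
    · filter_upwards [ae_all_iff.2 fun n => sq_ae (AEEqFun.comp φ' hφ' (p n) - AEEqFun.comp φ' hφ' q),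
        ae_all_iff.2 fun n => sub_ae (AEEqFun.comp φ' hφ' (p n)) (AEEqFun.comp φ' hφ' q),
        ae_all_iff.2 fun n => AEEqFun.coeFn_comp φ' hφ' (p n), AEEqFun.coeFn_comp φ' hφ' q,
        hlim, zero_ae (M := M) (m := m)] with x e1 e2 e3 e4 e5 e6
      simp only [Function.comp_apply] at e3 e4
      rw [e6]
      simp only [e1, e2, e3, e4]
      have := ((hφ'.tendsto (q x)).comp e5).sub_const (φ' (q x))
      have h3 := this.pow 2
      simpa using h3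
  have l3 := hT'.lim
  have hlimE : Tendsto (fun n => 3 * (K ^ 2 * I (C.Γ (c n • (p n - q) - f') (c n • (p n - q) - f'))
      + I ((AEEqFun.comp φ' hφ' (p n) - AEEqFun.comp φ' hφ' q) ^ 2 * C.Γ f' f')
      + |L| * I ((c n • (AEEqFun.comp φ' hφ' (p n) - AEEqFun.comp φ' hφ' q)
        - AEEqFun.comp φ'' hφ'' q * f') ^ 2))) atTop (𝓝 0) := by
    have := (((l1.const_mul (K ^ 2)).add l2).add (l3.const_mul |L|)).const_mul 3
    simpa using this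
  have hlim2 := hT.lim.add hlimE
  rw [add_zero] at hlim2
  refine squeeze_zero (fun n => hC.nrm2_nonneg (hC.sub_mem (hW n) hm.1)) (fun n => ?_) hlim2
  unfold Calc.nrm2
  refine add_le_add le_rfl ?_
  set E := c n • (AEEqFun.comp φ hφ (p n) - AEEqFun.comp φ hφ q) - AEEqFun.comp φ' hφ' q * f' with hE
  have hEW : E ∈ C.W := hC.sub_mem (hW n) hm.1
  have hXW : c n • (p n - q) ∈ C.W := hX.mem n
  have hY1 : c n • (p n - q) - f' ∈ C.W := hC.sub_mem hXW hf'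
  have hpq := hC.sub_mem (hpW n) hqW
  have hid : C.Γ E E = AEEqFun.comp φ' hφ' (p n) * C.Γ (c n • (p n - q) - f') E
      + (AEEqFun.comp φ' hφ' (p n) - AEEqFun.comp φ' hφ' q) * C.Γ f' E
      + (c n • (AEEqFun.comp φ' hφ' (p n) - AEEqFun.comp φ' hφ' q)
        - AEEqFun.comp φ'' hφ'' q * f') * C.Γ q E := by
    have e1 : C.Γ E E = C.Γ (c n • (AEEqFun.comp φ hφ (p n) - AEEqFun.comp φ hφ q)) E
        - C.Γ (AEEqFun.comp φ' hφ' q * f') E := by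
      conv_lhs => rw [hE]
      exact hC.Γ_sub_left (hW n) hm.1 hEW
    rw [e1, hC.smul_left _ _ (hC.sub_mem (hpc n).1 hqc.1) _ hEW,
      hC.Γ_sub_left (hpc n).1 hqc.1 hEW, (hpc n).2 _ hEW, hqc.2 _ hEW, hm.2 _ hEW,
      hC.Γ_sub_left hXW hf' hEW, hC.smul_left _ _ hpq _ hEW, hC.Γ_sub_left (hpW n) hqW hEW]
    algebra
  have hbd := hC.Γ3_le hEW hY1 hf' hqW hid
  have m1 := hC.mem1 _ hY1
  have m2 : MemLp ((AEEqFun.comp φ' hφ' (p n) - AEEqFun.comp φ' hφ' q) ^ 2 * C.Γ f' f' : M →ₘ[m] ℝ)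
      1 m := by
    have e : (AEEqFun.comp φ' hφ' (p n) - AEEqFun.comp φ' hφ' q) ^ 2 * C.Γ f' f'
      = (AEEqFun.comp φ' hφ' (p n) - AEEqFun.comp φ' hφ' q) *
        ((AEEqFun.comp φ' hφ' (p n) - AEEqFun.comp φ' hφ' q) * C.Γ f' f') := by ring
    rw [e]
    have b1 := mem_sub (nem_comp_top (hp n) hφ') (nem_comp_top hq hφ')
    exact mem_mul_top b1 (mem_mul_top b1 (hC.mem1 _ hf'))
  have m3 := mem_sq (mem_sub (hT'.mem n) hT'.mem')
  rw [← I_smul, ← I_smul, ← I_add (mem_smul _ m1) m2, ← I_add (mem_add (mem_smul _ m1) m2)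
    (mem_smul _ m3), ← I_smul]
  refine I_mono (hC.mem1 _ hEW) (mem_smul _ (mem_add (mem_add (mem_smul _ m1) m2) (mem_smul _ m3))) ?_
  rw [le_iff_ae]
  filter_upwards [hbd, smul_ae (K ^ 2 • C.Γ (c n • (p n - q) - f') (c n • (p n - q) - f')
      + (AEEqFun.comp φ' hφ' (p n) - AEEqFun.comp φ' hφ' q) ^ 2 * C.Γ f' f'
      + |L| • (c n • (AEEqFun.comp φ' hφ' (p n) - AEEqFun.comp φ' hφ' q)
        - AEEqFun.comp φ'' hφ'' q * f') ^ 2) 3,
    add_ae (K ^ 2 • C.Γ (c n • (p n - q) - f') (c n • (p n - q) - f')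
      + (AEEqFun.comp φ' hφ' (p n) - AEEqFun.comp φ' hφ' q) ^ 2 * C.Γ f' f')
      (|L| • (c n • (AEEqFun.comp φ' hφ' (p n) - AEEqFun.comp φ' hφ' q)
        - AEEqFun.comp φ'' hφ'' q * f') ^ 2),
    add_ae (K ^ 2 • C.Γ (c n • (p n - q) - f') (c n • (p n - q) - f'))
      ((AEEqFun.comp φ' hφ' (p n) - AEEqFun.comp φ' hφ' q) ^ 2 * C.Γ f' f'),
    smul_ae (C.Γ (c n • (p n - q) - f') (c n • (p n - q) - f')) (K ^ 2),
    mul_ae ((AEEqFun.comp φ' hφ' (p n) - AEEqFun.comp φ' hφ' q) ^ 2) (C.Γ f' f'),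
    sq_ae (AEEqFun.comp φ' hφ' (p n) - AEEqFun.comp φ' hφ' q),
    smul_ae ((c n • (AEEqFun.comp φ' hφ' (p n) - AEEqFun.comp φ' hφ' q)
        - AEEqFun.comp φ'' hφ'' q * f') ^ 2) |L|,
    sq_ae (c n • (AEEqFun.comp φ' hφ' (p n) - AEEqFun.comp φ' hφ' q)
        - AEEqFun.comp φ'' hφ'' q * f'),
    nem_comp_bdd (hp n) hK' hφ', hL, hC.Γ_nonneg_ae hY1] with x e1 e2 e3 e4 e5 e6 e7 e8 e9 e10 e11 e12
  rw [e2, e3, e4, e5, e6, e7, e8, e9]
  refine e1.trans (mul_le_mul_of_nonneg_left (add_le_add (add_le_add ?_ le_rfl) ?_) (by norm_num))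
  · refine mul_le_mul_of_nonneg_right ?_ e12
    rw [← sq_abs]
    exact pow_le_pow_left₀ (abs_nonneg _) e10 2
  · rw [mul_comm]
    refine mul_le_mul_of_nonneg_right ?_ (sq_nonneg _)
    exact (le_abs_self _).trans (e11.trans (le_abs_self _))

variable {f : ℝ → M →ₘ[m] ℝ} {f' : M →ₘ[m] ℝ} {S : Set ℝ} {t : ℝ}

/-- THE CHAIN RULE in the Sobolev space -/
theorem DW_nem (h : C.DW f f' S t) (hft : f t ∈ C.W) (ha : a ≤ 0) (hb : 0 ≤ b)
    (hab : ∀ r ∈ S, ∀ᵐ x ∂m, a ≤ f r x ∧ f r x ≤ b) (habt : ∀ᵐ x ∂m, a ≤ f t x ∧ f t x ≤ b)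
    (hΓ : MemLp (C.Γ (f t) (f t)) ∞ m)
    (hφ : Continuous φ) (hφ' : Continuous φ') (hφ'' : Continuous φ'')
    (hd : ∀ y ∈ Icc a b, HasDerivWithinAt φ (φ' y) (Icc a b) y)
    (hd' : ∀ y ∈ Icc a b, HasDerivWithinAt φ' (φ'' y) (Icc a b) y) (h0 : φ 0 = 0) :
    C.DW (fun r => AEEqFun.comp φ hφ (f r)) (AEEqFun.comp φ' hφ' (f t) * f') S t := by
  have hfr : ∀ r ∈ S, f r ∈ C.W := fun r hr => by
    have := hC.add_mem _ (h.mem r hr) _ hft
    rwa [sub_add_cancel] at this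
  refine hC.DW_of_subseq (fun r hr => ?_) (hC.nem_mul ha hb hft habt hΓ h.mem' hφ' hφ'' hd').1
    fun r hr => ?_
  · exact hC.sub_mem (hC.hc_chain (hfr r hr) ha hb (hab r hr) hφ hφ' hd h0).1
      (hC.hc_chain hft ha hb habt hφ hφ' hd h0).1
  · obtain ⟨ns, hns, hlim⟩ := (hC.DW_DL2 h).exists_ae hr
    exact ⟨ns, hns, hC.nem_TW ha hb (fun n => hfr _ (hr.mem _)) hft (fun n => hab _ (hr.mem _)) habt
      hΓ hφ hφ' hφ'' hd hd' h0 hlim (IsDir.TW_comp (hC.DW_seq h hr) hns)⟩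

end IsDir

/-! ### exponential and logarithm -/

section explog

variable {f L χ : ℝ → M →ₘ[m] ℝ} {f' L' χ' : M →ₘ[m] ℝ} {S : Set ℝ} {t K : ℝ}

theorem nem_ex_ae (f : M →ₘ[m] ℝ) : ∀ᵐ x ∂m, ex f x = Real.exp (f x) :=
  AEEqFun.coeFn_comp _ _ f

theorem nem_range {f : M →ₘ[m] ℝ} {K : ℝ} (h : ∀ᵐ x ∂m, |f x| ≤ K) :
    ∀ᵐ x ∂m, -|K| ≤ f x ∧ f x ≤ |K| := by
  filter_upwards [h] with x hx
  have := abs_le.1 (hx.trans (le_abs_self K))
  exact this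

/-- the derivative of `exp f` in `L²` -/
theorem DL2.comp_ex (h : DL2 f f' S t) (hK : ∀ r ∈ S, ∀ᵐ x ∂m, |f r x| ≤ K)
    (hKt : ∀ᵐ x ∂m, |f t x| ≤ K) : DL2 (fun r => ex (f r)) (ex (f t) * f') S t :=
  h.nem (fun r hr => nem_range (hK r hr)) (nem_range hKt) Real.continuous_exp Real.continuous_exp
    fun y _ => (Real.hasDerivAt_exp y).hasDerivWithinAt

/-- the derivative of `exp f` in `W` -/
theorem IsDir.DW_nem_ex (hC : IsDir C) (h : C.DW f f' S t) (hft : f t ∈ C.W)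
    (hK : ∀ r ∈ S, ∀ᵐ x ∂m, |f r x| ≤ K) (hKt : ∀ᵐ x ∂m, |f t x| ≤ K)
    (hΓ : MemLp (C.Γ (f t) (f t)) ∞ m) : C.DW (fun r => ex (f r)) (ex (f t) * f') S t := by
  have h1 := hC.DW_nem h hft (a := -|K|) (b := |K|) (by simp) (abs_nonneg _)
    (fun r hr => nem_range (hK r hr)) (nem_range hKt) hΓ
    (φ := fun x => Real.exp x - 1) (φ' := Real.exp) (φ'' := Real.exp)
    (by fun_prop) Real.continuous_exp Real.continuous_exp
    (fun y _ => ((Real.hasDerivAt_exp y).sub_const 1).hasDerivWithinAt)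
    (fun y _ => (Real.hasDerivAt_exp y).hasDerivWithinAt) (by simp)
  have h2 := hC.DW_add h1 (hC.DW_const (S := S) (t := t) (1 : M →ₘ[m] ℝ))
  rw [add_zero] at h2
  have e : ∀ r, ex (f r) = AEEqFun.comp (fun x => Real.exp x - 1) (by fun_prop) (f r) + 1 := by
    intro r
    rw [eq_iff_ae]
    filter_upwards [nem_ex_ae (f r), AEEqFun.coeFn_comp (fun x => Real.exp x - 1) (by fun_prop) (f r),
      add_ae (AEEqFun.comp (fun x => Real.exp x - 1) (by fun_prop) (f r)) 1,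
      one_ae (M := M) (m := m)] with x e1 e2 e3 e4
    simp only [Function.comp_apply] at e2
    rw [e1, e3, e2, e4]; ring
  exact IsDir.DW_congr h2 (fun r _ => e r) (e t)

/-- the auxiliary logarithm -/
noncomputable def lgc (c x : ℝ) : ℝ := Real.log (max (1 + x) c)

theorem lgc_cont {c : ℝ} (hc : 0 < c) : Continuous (lgc c) := by
  unfold lgc
  refine Continuous.log (by fun_prop) fun x => ?_
  exact (lt_max_of_lt_right hc).ne'

theorem lgc_cont' {c : ℝ} (hc : 0 < c) : Continuous fun x => (max (1 + x) c)⁻¹ := by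
  refine Continuous.inv₀ (by fun_prop) fun x => ?_
  exact (lt_max_of_lt_right hc).ne'

theorem lgc_cont'' {c : ℝ} (hc : 0 < c) : Continuous fun x => -((max (1 + x) c) ^ 2)⁻¹ := by
  refine (Continuous.inv₀ (by fun_prop) fun x => ?_).neg
  exact (pow_pos (lt_max_of_lt_right hc) 2).ne'

theorem lgc_hd {c b : ℝ} (hc : 0 < c) :
    ∀ y ∈ Icc (c - 1) b, HasDerivWithinAt (lgc c) ((max (1 + y) c)⁻¹) (Icc (c - 1) b) y := by
  intro y hy
  have h1 : ∀ z ∈ Icc (c - 1) b, max (1 + z) c = 1 + z := fun z hz => max_eq_left (by linarith [hz.1])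
  have h2 : HasDerivWithinAt (fun x => Real.log (1 + x)) (1 + y)⁻¹ (Icc (c - 1) b) y := by
    have h3 : HasDerivAt (fun x : ℝ => 1 + x) 1 y := by
      simpa using (hasDerivAt_id y).const_add 1
    have h4 : (1 : ℝ) + y ≠ 0 := by
      have := hy.1
      exact (by linarith : (0 : ℝ) < 1 + y).ne'
    have := (h3.log h4).hasDerivWithinAt (s := Icc (c - 1) b)
    simpa using this
  rw [h1 y hy]
  exact h2.congr (fun z hz => by simp only [lgc, h1 z hz]) (by simp only [lgc, h1 y hy])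

theorem lgc_hd' {c b : ℝ} (hc : 0 < c) :
    ∀ y ∈ Icc (c - 1) b, HasDerivWithinAt (fun x => (max (1 + x) c)⁻¹)
      (-((max (1 + y) c) ^ 2)⁻¹) (Icc (c - 1) b) y := by
  intro y hy
  have h1 : ∀ z ∈ Icc (c - 1) b, max (1 + z) c = 1 + z := fun z hz => max_eq_left (by linarith [hz.1])
  have h2 : HasDerivWithinAt (fun x => (1 + x)⁻¹) (-((1 + y) ^ 2)⁻¹) (Icc (c - 1) b) y := by
    have h3 : HasDerivAt (fun x : ℝ => 1 + x) 1 y := by
      simpa using (hasDerivAt_id y).const_add 1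
    have h4 : (1 : ℝ) + y ≠ 0 := by
      have := hy.1
      exact (by linarith : (0 : ℝ) < 1 + y).ne'
    have := (h3.fun_inv h4).hasDerivWithinAt (s := Icc (c - 1) b)
    simpa [neg_div] using this
  rw [h1 y hy]
  exact h2.congr (fun z hz => by simp only [h1 z hz]) (by simp only [h1 y hy])

/-- `f = log (1 + χ)` as a composition -/
theorem eq_lgc {f χ : M →ₘ[m] ℝ} {K : ℝ} (h : ex f = 1 + χ) (hK : ∀ᵐ x ∂m, |f x| ≤ K)
    (hc : 0 < Real.exp (-|K|)) :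
    f = AEEqFun.comp (lgc (Real.exp (-|K|))) (lgc_cont hc) χ ∧
    ex (-f) = AEEqFun.comp (fun x => (max (1 + x) (Real.exp (-|K|)))⁻¹) (lgc_cont' hc) χ ∧
    ∀ᵐ x ∂m, Real.exp (-|K|) - 1 ≤ χ x ∧ χ x ≤ Real.exp |K| - 1 := by
  have key : ∀ᵐ x ∂m, Real.exp (f x) = 1 + χ x ∧ Real.exp (-|K|) ≤ Real.exp (f x) ∧
      Real.exp (f x) ≤ Real.exp |K| := by
    filter_upwards [nem_ex_ae f, eq_iff_ae.1 h, add_ae (1 : M →ₘ[m] ℝ) χ, one_ae (M := M) (m := m),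
      nem_range hK] with x e1 e2 e3 e4 e5
    refine ⟨by rw [← e1, e2, e3, e4], Real.exp_le_exp.2 e5.1, Real.exp_le_exp.2 e5.2⟩
  refine ⟨?_, ?_, ?_⟩
  · rw [eq_iff_ae]
    filter_upwards [key, AEEqFun.coeFn_comp (lgc (Real.exp (-|K|))) (lgc_cont hc) χ] with x e1 e2
    simp only [Function.comp_apply] at e2
    rw [e2, lgc, ← e1.1, max_eq_left e1.2.1, Real.log_exp]
  · rw [eq_iff_ae]
    filter_upwards [key, nem_ex_ae (-f), neg_ae f, AEEqFun.coeFn_comp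
      (fun x => (max (1 + x) (Real.exp (-|K|)))⁻¹) (lgc_cont' hc) χ] with x e1 e2 e3 e4
    simp only [Function.comp_apply] at e4
    rw [e2, e3, e4, ← e1.1, max_eq_left e1.2.1, Real.exp_neg]
  · filter_upwards [key] with x e1
    constructor <;> linarith [e1.1, e1.2.1, e1.2.2]

/-- the derivative of a logarithm in `L²`: `exp f = 1 + χ` -/
theorem DL2.log (h : DL2 χ χ' S t) (hf : ∀ r ∈ S, ex (f r) = 1 + χ r ∧ ∀ᵐ x ∂m, |f r x| ≤ K)
    (hft : ex (f t) = 1 + χ t ∧ ∀ᵐ x ∂m, |f t x| ≤ K) : DL2 f (ex (-f t) * χ') S t := by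
  have hc := Real.exp_pos (-|K|)
  have h1 := h.nem (fun r hr => (eq_lgc (hf r hr).1 (hf r hr).2 hc).2.2)
    (eq_lgc hft.1 hft.2 hc).2.2 (lgc_cont hc) (lgc_cont' hc) (lgc_hd hc)
  rw [← (eq_lgc hft.1 hft.2 hc).2.1] at h1
  exact h1.congr (fun r hr => (eq_lgc (hf r hr).1 (hf r hr).2 hc).1)
    (eq_lgc hft.1 hft.2 hc).1

/-- the derivative of a logarithm in `W`: `exp f = 1 + χ` -/
theorem IsDir.DW_nem_log (hC : IsDir C) (h : C.DW χ χ' S t) (hχt : χ t ∈ C.W)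
    (hf : ∀ r ∈ S, ex (f r) = 1 + χ r ∧ ∀ᵐ x ∂m, |f r x| ≤ K)
    (hft : ex (f t) = 1 + χ t ∧ ∀ᵐ x ∂m, |f t x| ≤ K)
    (hΓ : MemLp (C.Γ (χ t) (χ t)) ∞ m) : C.DW f (ex (-f t) * χ') S t := by
  have hc := Real.exp_pos (-|K|)
  have hc1 : Real.exp (-|K|) - 1 ≤ 0 := by
    have := Real.exp_le_one_iff.2 (neg_nonpos.2 (abs_nonneg K)); linarith
  have hc2 : 0 ≤ Real.exp |K| - 1 := by
    have := Real.one_le_exp (abs_nonneg K); linarith
  have h1 := hC.DW_nem h hχt hc1 hc2 (fun r hr => (eq_lgc (hf r hr).1 (hf r hr).2 hc).2.2)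
    (eq_lgc hft.1 hft.2 hc).2.2 hΓ (lgc_cont hc) (lgc_cont' hc) (lgc_cont'' hc) (lgc_hd hc)
    (lgc_hd' hc) (by
      unfold lgc
      rw [add_zero, max_eq_left (by linarith), Real.log_one])
  rw [← (eq_lgc hft.1 hft.2 hc).2.1] at h1
  exact IsDir.DW_congr h1 (fun r hr => (eq_lgc (hf r hr).1 (hf r hr).2 hc).1)
    (eq_lgc hft.1 hft.2 hc).1

/-- the derivative of the entropy `∫ (ρ log ρ - ρ + 1)`, `ρ = exp L`, `L ∈ L²` bounded -/
theorem DL2.entropy (h : DL2 L L' S t) (hLt : MemLp (L t) 2 m)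
    (hK : ∀ r ∈ S, ∀ᵐ x ∂m, |L r x| ≤ K) (hKt : ∀ᵐ x ∂m, |L t x| ≤ K) :
    HasDerivWithinAt (fun r => I (L r * ex (L r) - ex (L r) + 1)) (I (L t * ex (L t) * L')) S t := by
  have hLr : ∀ r ∈ S, MemLp (L r) 2 m := fun r hr => by
    have := mem_add (h.mem r hr) hLt
    rwa [sub_add_cancel] at this
  have hd : ∀ y : ℝ, HasDerivAt (fun x => x * Real.exp x - Real.exp x + 1) (y * Real.exp y) y := by
    intro y
    have := (((hasDerivAt_id y).mul (Real.hasDerivAt_exp y)).sub (Real.hasDerivAt_exp y)).add_const 1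
    have e : 1 * Real.exp y + id y * Real.exp y - Real.exp y = y * Real.exp y := by
      simp only [id]; ring
    rw [e] at this
    exact this
  have hd' : ∀ y : ℝ, HasDerivAt (fun x => x * Real.exp x) (Real.exp y + y * Real.exp y) y := by
    intro y
    have := (hasDerivAt_id y).mul (Real.hasDerivAt_exp y)
    have e : 1 * Real.exp y + id y * Real.exp y = Real.exp y + y * Real.exp y := by
      simp only [id]; ring
    rw [e] at this
    exact this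
  have hφ : Continuous fun x : ℝ => x * Real.exp x - Real.exp x + 1 := by fun_prop
  have hφ' : Continuous fun x : ℝ => x * Real.exp x := by fun_prop
  have hφ'' : Continuous fun x : ℝ => Real.exp x + x * Real.exp x := by fun_prop
  obtain ⟨c1, c10, -, hc1⟩ := nem_lip_const (a := -|K|) (b := |K|) hφ''
    (fun y _ => (hd' y).hasDerivWithinAt)
  obtain ⟨c2, c20, -, hc2⟩ := nem_lip_const (a := -|K|) (b := |K|) hφ'
    (fun y _ => (hd y).hasDerivWithinAt)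
  have h0 : (0 : ℝ) ∈ Icc (-|K|) |K| := ⟨by simp, abs_nonneg K⟩
  -- integrability
  have hm' : ∀ (p : M →ₘ[m] ℝ), MemLp p 2 m → (∀ᵐ x ∂m, |p x| ≤ K) →
      MemLp (AEEqFun.comp (fun x : ℝ => x * Real.exp x) hφ' p) 2 m := by
    intro p hp hpK
    refine mem_of_le (mem_smul c1 hp) ?_
    filter_upwards [AEEqFun.coeFn_comp (fun x : ℝ => x * Real.exp x) hφ' p, smul_ae p c1,
      nem_range hpK] with x e1 e2 e3
    simp only [Function.comp_apply] at e1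
    rw [e1, e2, abs_mul c1, abs_of_nonneg c10]
    have := hc1 _ e3 0 h0
    simpa using this
  have hm1 : ∀ (p : M →ₘ[m] ℝ), MemLp p 2 m → (∀ᵐ x ∂m, |p x| ≤ K) →
      MemLp (AEEqFun.comp (fun x : ℝ => x * Real.exp x - Real.exp x + 1) hφ p) 1 m := by
    intro p hp hpK
    refine mem_of_le (mem_smul (Real.exp |K|) (mem_sq hp)) ?_
    filter_upwards [AEEqFun.coeFn_comp (fun x : ℝ => x * Real.exp x - Real.exp x + 1) hφ p,
      smul_ae (p ^ 2) (Real.exp |K|), sq_ae p, nem_range hpK] with x e1 e2 e3 e4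
    simp only [Function.comp_apply] at e1
    rw [e1, e2, e3, abs_of_nonneg (by positivity : 0 ≤ Real.exp |K| * p x ^ 2)]
    -- `0 ≤ y e^y - e^y + 1 ≤ e^K y²`
    have k1 : 0 ≤ p x * Real.exp (p x) - Real.exp (p x) + 1 := by
      have := Real.add_one_le_exp (-p x)
      have e5 : Real.exp (p x) * Real.exp (-p x) = 1 := by rw [← Real.exp_add]; simp
      nlinarith [Real.exp_pos (p x)]
    rw [abs_of_nonneg k1]
    have k2 : 1 + p x ≤ Real.exp (p x) := by linarith [Real.add_one_le_exp (p x)]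
    have k3 : Real.exp (p x) ≤ Real.exp |K| := Real.exp_le_exp.2 e4.2
    rcases le_or_gt 0 (p x) with hp0 | hp0
    · have k4 : p x * Real.exp (p x) - Real.exp (p x) + 1 ≤ p x ^ 2 * Real.exp (p x) := by
        have e5 : 1 - p x ≤ Real.exp (-p x) := by linarith [Real.add_one_le_exp (-p x)]
        have e6 : Real.exp (p x) * Real.exp (-p x) = 1 := by rw [← Real.exp_add]; simp
        -- 1 ≤ e^y (1 - y + y²)
        have e7 : Real.exp (-p x) ≤ 1 - p x + p x ^ 2 := by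
          have e8 : Real.exp (-p x) ≤ (1 + p x)⁻¹ := by
            rw [Real.exp_neg]
            exact inv_anti₀ (by linarith) k2
          refine e8.trans ?_
          rw [inv_le_iff_one_le_mul₀ (by linarith)]
          nlinarith [pow_nonneg hp0 3]
        nlinarith [Real.exp_pos (p x)]
      nlinarith [sq_nonneg (p x)]
    · have k4 : p x * Real.exp (p x) - Real.exp (p x) + 1 ≤ p x ^ 2 := by
        have e5 : (1 - p x) * (1 + p x) ≤ (1 - p x) * Real.exp (p x) :=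
          mul_le_mul_of_nonneg_left k2 (by linarith)
        nlinarith
      have k5 : (1 : ℝ) ≤ Real.exp |K| := Real.one_le_exp (abs_nonneg K)
      nlinarith [sq_nonneg (p x)]
  have h1 := h.nem1 (fun r hr => nem_range (hK r hr)) (nem_range hKt) hφ hφ'
    (fun y _ => (hd y).hasDerivWithinAt) (L := c1) hc1 (hm' _ hLt hKt)
  have h2 := h1.I_hasDeriv (fun r hr => hm1 _ (hLr r hr) (hK r hr)) (hm1 _ hLt hKt)
  have e : ∀ p : M →ₘ[m] ℝ, p * ex p - ex p + 1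
      = AEEqFun.comp (fun x : ℝ => x * Real.exp x - Real.exp x + 1) hφ p := by
    intro p
    rw [eq_iff_ae]
    filter_upwards [add_ae (p * ex p - ex p) 1, sub_ae (p * ex p) (ex p), mul_ae p (ex p),
      nem_ex_ae p, one_ae (M := M) (m := m),
      AEEqFun.coeFn_comp (fun x : ℝ => x * Real.exp x - Real.exp x + 1) hφ p] with x e1 e2 e3 e4 e5 e6
    simp only [Function.comp_apply] at e6
    rw [e1, e2, e3, e4, e5, e6]
  have e' : AEEqFun.comp (fun x : ℝ => x * Real.exp x) hφ' (L t) = L t * ex (L t) := by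
    rw [eq_iff_ae]
    filter_upwards [mul_ae (L t) (ex (L t)), nem_ex_ae (L t),
      AEEqFun.coeFn_comp (fun x : ℝ => x * Real.exp x) hφ' (L t)] with x e1 e2 e3
    simp only [Function.comp_apply] at e3
    rw [e1, e2, e3]
  rw [e'] at h2
  simp only [e]
  exact h2

end explog

end Vale.Agent.P233
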