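import Vale.Agent.P233.H982.RHout

/-! P233, RCDA, block H3c: `|Q_t f - f| ≤ C √t` for bounded Lipschitz functions. -/

set_option linter.all false

open MeasureTheory Filter Topology Set
open scoped ENNReal NNReal

universe u

namespace Vale.Agent.P233.H982

open Vale.Agent.P233.RA

variable {M : Type u} [MetricSpace M] [MeasurableSpace M] [BorelSpace M] [SecondCountableTopology M]
  {m : Measure M} {n : ℕ} {K θ : ℝ}

theorem exists_okd (h : NSp m n K θ) (B : ℝ) : ∃ δ : ℝ, B ≤ δ ∧ Okd M K δ := by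
  by_cases hK : 0 < K
  · set R : ℝ := 2 * √(2 * (27 * n / (2 * K))) with hR
    refine ⟨|B| + R ^ 2 / 2 + 1, ?_, ?_, Or.inr fun x y => ?_⟩
    · have := le_abs_self B
      have : 0 ≤ R ^ 2 / 2 := by positivity
      linarith
    · positivity
    · have h1 := bounded_of_pos h hK x y
      have h2 : dist x y ^ 2 ≤ R ^ 2 := pow_le_pow_left₀ dist_nonneg h1 2
      have h3 : gg y x = dist x y ^ 2 / 2 := rfl
      have := abs_nonneg B
      rw [h3]
      linarith
  · exact ⟨|B| + 1, by linarith [le_abs_self B], by positivity, Or.inl (not_lt.1 hK)⟩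

theorem lip_up (h : NSp m n K θ) {δ C₁ : ℝ} (hδ : Okd M K δ) (hC₁ : 0 ≤ C₁)
    (hd : ∀ t : ℝ, 0 ≤ t → t ≤ 1 → ∀ y : M, ∀ᵐ x ∂m,
      Q m t (cl m (ww δ y)) x ≤ ww δ y x + t / 2 * (n - 2 * K / 3 * cc δ x y) + C₁ * (t * √t))
    {L B : ℝ} (hL : 0 < L) (hB : 2 * B ≤ L * δ) {f : M → ℝ} (hfc : Continuous f)
    (hf : ∀ x y, f x - f y ≤ L * dist x y) (hfB : ∀ x, |f x| ≤ B) (hF : cl m f ∈ (sob m).W)
    {t : ℝ} (ht : 0 ≤ t) (ht1 : t ≤ 1) :
    ∀ᵐ x ∂m, Q m t (cl m f) x ≤ f x + L * (1 / 2 + ((n + |K| * δ) / 2 + C₁)) * √t := by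
  have hC : IsDir (sob m) := h.isDir
  have hfae : ∀ᵐ x ∂m, cl m f x = f x := H183.cl_cont hfc
  rcases ht.eq_or_lt with h0 | h0
  · subst h0
    have e : Q m 0 (cl m f) = cl m f := by
      unfold Q
      rw [zero_div]
      exact hC.P_zero_time (hC.memLp _ hF)
    rw [e]
    filter_upwards [hfae] with x hx
    rw [hx, Real.sqrt_zero, mul_zero, add_zero]
  set ε : ℝ := √t with hε
  have hε0 : 0 < ε := Real.sqrt_pos.2 h0
  have hε2 : ε * ε = t := Real.mul_self_sqrt ht
  have hε1 : ε ≤ 1 := Real.sqrt_le_one.2 ht1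
  have ht2 : 0 ≤ t / 2 := by linarith
  have hδ0 := hδ.1
  have hFm := hC.memLp _ hF
  have key : ∀ y : M, ∀ᵐ x ∂m, Q m t (cl m f) x
      ≤ f y + L / ε * cc δ x y + L * (1 / 2 + ((n + |K| * δ) / 2 + C₁)) * ε := by
    intro y
    have hwA := ww_A h.fin hδ0.le y
    have hw2 := hC.memLp _ hwA.1
    set k : ℝ := f y + L * ε / 2 + L / ε * δ with hk
    have hLε : L ≤ L / ε := by
      rw [le_div_iff₀ hε0]
      exact mul_le_of_le_one_right hL.le hε1
    have hLδ : L * δ ≤ L / ε * δ := mul_le_mul_of_nonneg_right hLε hδ0.le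
    have hB0 : 0 ≤ B := (abs_nonneg _).trans (hfB y)
    have hk0 : 0 ≤ k := by
      have h1 := (abs_le.1 (hfB y)).1
      have h2 : 0 ≤ L * ε / 2 := by positivity
      simp only [hk]
      linarith
    have hp : ∀ z, f z - L / ε * ww δ y z ≤ k := by
      intro z
      have h1 := (abs_le.1 (hfB y)).1
      have h2 := (abs_le.1 (hfB z)).2
      simp only [hk]
      by_cases hz : gg y z < δ
      · rw [ww_of_lt hz]
        have h3 := hf z y
        have h4 : L * dist z y ≤ L * ε / 2 + L / ε * gg y z := by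
          unfold gg
          have h5 : 0 ≤ L / (2 * ε) * (dist z y - ε) ^ 2 := by positivity
          have h6 : L / (2 * ε) * (dist z y - ε) ^ 2
              = L * ε / 2 + L / ε * (dist z y ^ 2 / 2) - L * dist z y := by
            field_simp
            ring
          linarith
        linarith
      · rw [ww_of_ge (not_lt.1 hz)]
        have h4 : 0 ≤ L * ε / 2 := by positivity
        linarith
    have h1 : ∀ᵐ x ∂m, (sob m).P (t / 2) (cl m f - (L / ε) • cl m (ww δ y)) x ≤ k := by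
      refine hC.P_le ht2 (mem_sub hFm (mem_smul _ hw2)) hk0 ?_
      filter_upwards [sub_ae (cl m f) ((L / ε) • cl m (ww δ y)), smul_ae (cl m (ww δ y)) (L / ε),
        hfae, ww_ae (m := m) hδ0.le y] with x a1 a2 a3 a4
      rw [a1, a2, a3, a4]
      exact hp x
    rw [hC.P_sub _ hFm (mem_smul _ hw2), hC.P_smul _ _ hw2] at h1
    filter_upwards [h1, sub_ae ((sob m).P (t / 2) (cl m f))
      ((L / ε) • (sob m).P (t / 2) (cl m (ww δ y))),
      smul_ae ((sob m).P (t / 2) (cl m (ww δ y))) (L / ε), hd t ht ht1 y] with x a1 a2 a3 a4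
    rw [a2, a3] at a1
    have a5 : Q m t (cl m f) x = (sob m).P (t / 2) (cl m f) x := rfl
    have a6 : Q m t (cl m (ww δ y)) x = (sob m).P (t / 2) (cl m (ww δ y)) x := rfl
    rw [← a5, ← a6] at a1
    have hc0 := cc_nonneg hδ0.le x y
    have hc1 := cc_le δ x y
    have a7 : -(2 * K / 3 * cc δ x y) ≤ |K| * δ := by
      have b1 : -(2 * K / 3 * cc δ x y) ≤ |2 * K / 3 * cc δ x y| := neg_le_abs _
      have b2 : |2 * K / 3 * cc δ x y| = 2 / 3 * (|K| * cc δ x y) := by
        rw [abs_mul, abs_of_nonneg hc0, abs_div, abs_mul, abs_of_pos (by norm_num : (0 : ℝ) < 2),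
          abs_of_pos (by norm_num : (0 : ℝ) < 3)]
        ring
      have b3 : |K| * cc δ x y ≤ |K| * δ := mul_le_mul_of_nonneg_left hc1 (abs_nonneg K)
      have b4 : 0 ≤ |K| * cc δ x y := by positivity
      linarith
    have a8 : t / 2 * (n - 2 * K / 3 * cc δ x y) ≤ t / 2 * (n + |K| * δ) :=
      mul_le_mul_of_nonneg_left (by linarith) ht2
    have a9 : C₁ * (t * ε) ≤ C₁ * t :=
      mul_le_mul_of_nonneg_left (mul_le_of_le_one_right ht hε1) hC₁
    have a10 : Q m t (cl m (ww δ y)) x ≤ (cc δ x y - δ) + t * ((n + |K| * δ) / 2 + C₁) := by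
      have : ww δ y x = cc δ x y - δ := rfl
      rw [← this]
      linarith
    have a11 := mul_le_mul_of_nonneg_left a10 (show 0 ≤ L / ε by positivity)
    have a12 : L / ε * (t * ((n + |K| * δ) / 2 + C₁)) = L * ((n + |K| * δ) / 2 + C₁) * ε := by
      rw [← hε2]
      field_simp
    rw [mul_add, mul_sub, a12] at a11
    simp only [hk] at a1
    linarith
  -- all centres at once
  obtain ⟨D, hDc, hDd⟩ := TopologicalSpace.exists_countable_dense M
  have h2 : ∀ᵐ x ∂m, ∀ y ∈ D, Q m t (cl m f) x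
      ≤ f y + L / ε * cc δ x y + L * (1 / 2 + ((n + |K| * δ) / 2 + C₁)) * ε :=
    (ae_ball_iff hDc).2 fun y _ => key y
  filter_upwards [h2] with x hx
  have hcont : Continuous fun y => f y + L / ε * cc δ x y
      + L * (1 / 2 + ((n + |K| * δ) / 2 + C₁)) * ε := by
    have h3 : Continuous fun y : M => cc δ x y := by
      unfold cc
      exact (((continuous_const.dist continuous_id).pow 2).div_const 2).min continuous_const
    exact (hfc.add (continuous_const.mul h3)).add continuous_const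
  have hcl : IsClosed {y | Q m t (cl m f) x ≤ f y + L / ε * cc δ x y
      + L * (1 / 2 + ((n + |K| * δ) / 2 + C₁)) * ε} := isClosed_le continuous_const hcont
  have h4 : x ∈ {y | Q m t (cl m f) x ≤ f y + L / ε * cc δ x y
      + L * (1 / 2 + ((n + |K| * δ) / 2 + C₁)) * ε} :=
    hcl.closure_subset_iff.2 (fun y hy => hx y hy) (hDd x)
  have h5 : cc δ x x = 0 := by
    unfold cc
    rw [dist_self]
    simp [hδ0.le]
  have h6 : Q m t (cl m f) x ≤ f x + L / ε * cc δ x x
      + L * (1 / 2 + ((n + |K| * δ) / 2 + C₁)) * ε := h4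
  rw [h5, mul_zero, add_zero] at h6
  exact h6

theorem blk_H3c : Blk_H3c.{u} := by
  intro M _ _ _ _ _ m n K θ h L B
  have hC : IsDir (sob m) := h.isDir
  obtain ⟨δ, hBδ, hδ⟩ := exists_okd h (2 * B)
  obtain ⟨C₁, hC₁, hd⟩ := blk_H3b M m n K θ h δ hδ
  have hL : (0 : ℝ) < (L : ℝ) + 1 := by positivity
  have hδ0 := hδ.1
  refine ⟨((L : ℝ) + 1) * (1 / 2 + ((n + |K| * δ) / 2 + C₁)), by positivity, ?_⟩
  intro f hf hfB hs t ht ht1
  obtain ⟨x₀, R, hR⟩ := hs
  have hB : 2 * B ≤ ((L : ℝ) + 1) * δ := by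
    have : 1 * δ ≤ ((L : ℝ) + 1) * δ :=
      mul_le_mul_of_nonneg_right (by linarith [L.coe_nonneg]) hδ0.le
    linarith
  have hlip : ∀ x y, |f x - f y| ≤ ((L : ℝ) + 1) * dist x y := by
    intro x y
    have h1 := hf.dist_le_mul x y
    rw [Real.dist_eq] at h1
    have h2 : 0 ≤ dist x y := dist_nonneg
    linarith
  have hW : cl m f ∈ (sob m).W :=
    H183.cl_mem_W h.fin hf (x₀ := x₀) (R := R) (fun x hx => hR x (by rwa [dist_comm]))
  have hfae : ∀ᵐ x ∂m, cl m f x = f x := H183.cl_cont hf.continuous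
  have hneg : cl m (fun x => -f x) = -cl m f := by
    rw [eq_iff_ae]
    have h1 : ∀ᵐ x ∂m, cl m (fun x => -f x) x = -f x := H183.cl_cont hf.continuous.neg
    filter_upwards [h1, neg_ae (cl m f), hfae] with x a1 a2 a3
    rw [a1, a2, a3]
  have h1 := lip_up h hδ hC₁ hd hL hB hf.continuous
    (fun x y => (le_abs_self _).trans (hlip x y)) hfB hW ht ht1
  have h2 := lip_up h hδ hC₁ hd hL hB hf.continuous.neg (f := fun x => -f x)
    (fun x y => by
      have e : -f x - -f y = -(f x - f y) := by ring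
      rw [e]
      exact (neg_le_abs _).trans (hlip x y))
    (fun x => by rw [abs_neg]; exact hfB x) (by rw [hneg]; exact hC.neg_mem hW) ht ht1
  have h3 : Q m t (cl m fun x => -f x) = -Q m t (cl m f) := by
    rw [hneg]
    exact hC.P_neg _ (hC.memLp _ hW)
  rw [h3] at h2
  filter_upwards [h1, h2, neg_ae (Q m t (cl m f))] with x a1 a2 a3
  rw [a3] at a2
  rw [abs_le]
  constructor <;> linarith

end Vale.Agent.P233.H982
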